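import Vale.Agent.P208.Grid

/-! The multi-scale pattern of strips for P208 and the core contradiction. -/

open Finset

namespace Vale.Agent.P208

/-- Number of colours at level `j`. -/
def Nn (j : ℕ) : ℕ := (Nat.unpair (Nat.unpair j).1).1 + 1

/-- Relative width of the vertical strips at level `j`. -/
def Ww (j : ℕ) : ℕ := (Nat.unpair (Nat.unpair j).1).2 + 1

/-- Reciprocal scales. -/
def Q : ℕ → ℕ
  | 0 => 1
  | j + 1 => Q j * (16 * (Nn (j + 1) * Ww (j + 1)))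

/-- The scale of level `j`. -/
noncomputable def r (j : ℕ) : ℝ := 1 / (Q j : ℝ)

/-- The colour of the strip with index `i` at level `j`. -/
def col (j : ℕ) (i : ℤ) : ℕ := (i % (Nn j : ℤ)).toNat + 1

/-- Admissible lifts over the base point `(x, y)`. -/
def Adm (s : ℕ →₀ ℕ) (x y : ℝ) : Prop :=
  ∀ j, s j = 0 ∨ (∃ i : ℤ, i * r j ≤ y ∧ y ≤ (i + 1) * r j ∧ s j = col j i) ∨
    (∃ i : ℤ, i * (Ww j * r j) ≤ x ∧ x ≤ (i + 1) * (Ww j * r j) ∧ s j = col j i)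

lemma Nn_pos (j : ℕ) : 0 < Nn j := Nat.succ_pos _
lemma Ww_pos (j : ℕ) : 0 < Ww j := Nat.succ_pos _

lemma Q_pos (j : ℕ) : 0 < Q j := by
  induction j with
  | zero => simp [Q]
  | succ j ih => have := Nn_pos (j + 1); have := Ww_pos (j + 1); simp only [Q]; positivity

lemma r_pos (j : ℕ) : 0 < r j := by
  have : (0 : ℝ) < Q j := by exact_mod_cast Q_pos j
  unfold r; positivity

lemma Q_mul (m K : ℕ) : ∃ T, K < T ∧ Q (m + K) = Q m * T := by
  induction K with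
  | zero => exact ⟨1, one_pos, by simp⟩
  | succ K ih =>
    obtain ⟨T, hT, h⟩ := ih
    refine ⟨T * (16 * (Nn (m + K + 1) * Ww (m + K + 1))), ?_, ?_⟩
    · have h1 := Nat.mul_pos (Nn_pos (m + K + 1)) (Ww_pos (m + K + 1))
      nlinarith
    · rw [← add_assoc]; simp only [Q]; rw [h]; ring

lemma r_succ (j : ℕ) : 16 * r (j + 1) ≤ r j := by
  have h0 : (0 : ℝ) < Q j := by exact_mod_cast Q_pos j
  have h1 : (1 : ℝ) ≤ (Nn (j + 1) * Ww (j + 1) : ℕ) := by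
    exact_mod_cast Nat.mul_pos (Nn_pos (j + 1)) (Ww_pos (j + 1))
  unfold r
  simp only [Q]
  push_cast at h1 ⊢
  rw [mul_one_div, div_le_div_iff₀ (by positivity) h0]
  nlinarith

lemma exists_level (N W m : ℕ) (hN : 0 < N) (hW : 0 < W) :
    ∃ j, m < j ∧ Nn j = N ∧ Ww j = W := by
  refine ⟨Nat.pair (Nat.pair (N - 1) (W - 1)) (m + 1), ?_, ?_, ?_⟩
  · exact Nat.lt_of_lt_of_le (Nat.lt_succ_self m) (Nat.right_le_pair _ _)
  · simp only [Nn, Nat.unpair_pair]; omega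
  · simp only [Ww, Nat.unpair_pair]; omega

lemma col_eq (j : ℕ) (l : ℤ) (P u : ℕ) : col j (l * (P * Nn j) + u) = u % Nn j + 1 := by
  unfold col
  have : (l * (P * Nn j) + u) % (Nn j : ℤ) = ((u % Nn j : ℕ) : ℤ) := by
    have e : l * (P * Nn j) + u = u + (l * P) * (Nn j : ℤ) := by ring
    rw [e, Int.add_mul_emod_self_right]; push_cast; rfl
  rw [this, Int.toNat_natCast]

lemma strip_bounds (l : ℤ) (M K b : ℕ) (hK : 0 < K) (ρ y : ℝ) (hρ : 0 < ρ)
    (h1 : (l * (M * K : ℕ) + b) * ρ ≤ y) (h2 : y ≤ (l * (M * K : ℕ) + b + 1) * ρ) :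
    ((l * M + (b / K : ℕ) : ℤ) : ℝ) * (K * ρ) ≤ y ∧
      y ≤ (((l * M + (b / K : ℕ) : ℤ) : ℝ) + 1) * (K * ρ) := by
  have a1 : (b / K) * K ≤ b := Nat.div_mul_le_self b K
  have a2 : b + 1 ≤ (b / K + 1) * K := by
    have := Nat.lt_div_mul_add (a := b) hK
    nlinarith
  have a1' : ((b / K : ℕ) : ℝ) * K ≤ b := by exact_mod_cast a1
  have a2' : (b : ℝ) + 1 ≤ (((b / K : ℕ) : ℝ) + 1) * K := by exact_mod_cast a2
  generalize b / K = d at *
  push_cast at h1 h2 ⊢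
  constructor
  · nlinarith [mul_le_mul_of_nonneg_right a1' hρ.le]
  · nlinarith [mul_le_mul_of_nonneg_right a2' hρ.le]

variable {E : Type*} [NormedAddCommGroup E] [InnerProductSpace ℝ E]

set_option maxHeartbeats 800000 in
theorem core [ProperSpace E] (F : (ℕ →₀ ℕ) → ℝ → ℝ → E) (L : ℝ) (hL : 0 < L)
    (hx : ∀ s x x' y, ‖F s x' y - F s x y‖ ≤ L * |x' - x|)
    (hy : ∀ s x y y', ‖F s x y' - F s x y‖ ≤ L * |y' - y|)
    (hs : ∀ s j c x y, ‖F (s.update j c) x y - F s x y‖ ≤ 2 * L * r j)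
    (hlow : ∀ (s : ℕ →₀ ℕ) j c c' x y, c ≠ c' → Adm (s.update j c) x y → Adm (s.update j c') x y →
      r j ≤ ‖F (s.update j c) x y - F (s.update j c') x y‖) : False := by
  obtain ⟨N, hN, hpack⟩ := packing (E := E) (2 * L)
  have hN' : (0 : ℝ) < N := by exact_mod_cast hN
  let S : Set ((ℕ →₀ ℕ) × ℕ × ℤ × ℤ) := {p | (∀ j, p.2.1 < j → p.1 j = 0) ∧
    ∀ x y : ℝ, p.2.2.1 * r p.2.1 ≤ x → x ≤ (p.2.2.1 + 1) * r p.2.1 →
      p.2.2.2 * r p.2.1 ≤ y → y ≤ (p.2.2.2 + 1) * r p.2.1 → Adm p.1 x y}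
  let E₁ : (ℕ →₀ ℕ) × ℕ × ℤ × ℤ → ℝ := fun p =>
    en (F p.1) (p.2.2.1 * r p.2.1) (p.2.2.2 * r p.2.1) (r p.2.1) / r p.2.1 ^ 3
  let E₂ : (ℕ →₀ ℕ) × ℕ × ℤ × ℤ → ℝ := fun p =>
    en (fun y x => F p.1 x y) (p.2.2.2 * r p.2.1) (p.2.2.1 * r p.2.1) (r p.2.1) / r p.2.1 ^ 3
  have hS : S.Nonempty := ⟨(0, 0, 0, 0), fun _ _ => rfl, fun _ _ _ _ _ _ _ => Or.inl rfl⟩
  have cF : ∀ s x, Continuous (F s x) := fun s x => cont_of_lip (hy s x)
  have cF' : ∀ s y, Continuous (fun x => F s x y) :=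
    fun s y => cont_of_lip fun t t' => hx s t t' y
  have b1 : ∀ p ∈ S, E₁ p ≤ L ^ 2 := by
    intro p _
    have := r_pos p.2.1
    simp only [E₁]
    rw [div_le_iff₀ (by positivity)]
    exact en_le (cF _) L (hx _) _ _ _ this.le
  have b2 : ∀ p ∈ S, 0 ≤ E₂ p ∧ E₂ p ≤ L ^ 2 := by
    intro p _
    have := r_pos p.2.1
    simp only [E₂]
    refine ⟨div_nonneg (en_nonneg _ _ _ _ this.le) (by positivity), ?_⟩
    rw [div_le_iff₀ (by positivity)]
    exact en_le (Φ := fun y x => F p.1 x y) (cF' _) L (fun y y' x => hy _ x y y') _ _ _ this.le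
  set η : ℝ := 1 / (13 * 128 * (N : ℝ) ^ 3) with hηd
  have hη : 0 < η := by positivity
  obtain ⟨α, β, τ, hτ, hα, hβ, happ⟩ := lex_sup S hS E₁ E₂ _ b1 b2 η hη
  obtain ⟨W₀, hW₀⟩ := exists_nat_ge (16 * L ^ 2 / (τ * η))
  set W := W₀ + 1 with hWd
  have hW : 0 < W := Nat.succ_pos _
  have hW' : (0 : ℝ) < W := by exact_mod_cast hW
  have hWL : 16 * L ^ 2 ≤ τ * η * W := by
    rw [div_le_iff₀ (by positivity)] at hW₀
    have : (W₀ : ℝ) ≤ W := by rw [hWd]; push_cast; linarith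
    nlinarith [mul_pos hτ hη]
  set ε : ℝ := min (min (τ * η / 2) η) (1 / (5 * 128 * (N : ℝ) ^ 3 * (W : ℝ) ^ 2)) with hεd
  have hε : 0 < ε := by positivity
  have hε1 : ε ≤ τ * η / 2 := (min_le_left _ _).trans (min_le_left _ _)
  have hε2 : ε ≤ η := (min_le_left _ _).trans (min_le_right _ _)
  have hε3 : ε ≤ 1 / (5 * 128 * (N : ℝ) ^ 3 * (W : ℝ) ^ 2) := min_le_right _ _
  obtain ⟨⟨s, m₀, i, l⟩, ⟨hp1, hp2⟩, hp3, hp4⟩ := happ ε hε
  simp only at hp1 hp2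
  simp only [E₁, E₂] at hp3 hp4
  obtain ⟨K₁, hK₁⟩ := exists_nat_ge (16 * L ^ 2 / ε)
  obtain ⟨j, hj, hjN, hjW⟩ := exists_level N W (m₀ + K₁) hN hW
  obtain ⟨K₂, rfl⟩ : ∃ K₂, j = m₀ + K₂ + 1 := ⟨j - m₀ - 1, by omega⟩
  obtain ⟨T₁, hT₁, hQ₁⟩ := Q_mul m₀ K₂
  set j := m₀ + K₂ + 1 with hjd
  obtain ⟨K₃, hK₃⟩ := exists_nat_ge (32 * L)
  obtain ⟨T, hT, hQ₂⟩ := Q_mul j K₃
  set m := j + K₃ with hmd
  set P := T₁ * 16 with hPd
  have hP : 0 < P := by omega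
  have hT0 : 0 < T := by omega
  have hQj : Q j = Q m₀ * (P * (N * W)) := by
    rw [hjd]; simp only [Q]; rw [hQ₁, ← hjd, hjN, hjW, hPd]; ring
  set n := P * (N * W * T) with hn
  have hQm : Q m = Q m₀ * n := by rw [hQ₂, hQj, hn]; ring
  set ρ := r m with hρd
  have hρ : 0 < ρ := r_pos m
  have hn0 : (0 : ℝ) < n := by
    have : 0 < n := by rw [hn]; positivity
    exact_mod_cast this
  have hrj : r j = T * ρ := by
    have h1 : (0 : ℝ) < Q j := by exact_mod_cast Q_pos j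
    have h2 : (0 : ℝ) < T := by exact_mod_cast hT0
    rw [hρd]; unfold r; rw [hQ₂]; push_cast; field_simp
  have hr0 : r m₀ = n * ρ := by
    have h1 : (0 : ℝ) < Q m₀ := by exact_mod_cast Q_pos m₀
    rw [hρd]; unfold r; rw [hQm]; push_cast; field_simp
  rw [hr0] at hp2 hp3 hp4
  set x₀ : ℝ := i * (n * ρ) with hx₀
  set y₀ : ℝ := l * (n * ρ) with hy₀
  have ex : ∀ a : ℕ, ((i * n + a : ℤ) : ℝ) * ρ = x₀ + a * ρ := fun a => by
    rw [hx₀]; push_cast; ring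
  have ey : ∀ b : ℕ, ((l * n + b : ℤ) : ℝ) * ρ = y₀ + b * ρ := fun b => by
    rw [hy₀]; push_cast; ring
  have base : ∀ a < n, ∀ b < n, ∀ x y : ℝ, ((i * n + a : ℤ) : ℝ) * ρ ≤ x →
      x ≤ (((i * n + a : ℤ) : ℝ) + 1) * ρ → ((l * n + b : ℤ) : ℝ) * ρ ≤ y →
      y ≤ (((l * n + b : ℤ) : ℝ) + 1) * ρ → Adm s x y := by
    intro a ha b hb x y h1 h2 h3 h4
    have ha' : (a : ℝ) + 1 ≤ n := by exact_mod_cast ha
    have hb' : (b : ℝ) + 1 ≤ n := by exact_mod_cast hb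
    have ha0 : (0 : ℝ) ≤ a * ρ := by positivity
    have hb0 : (0 : ℝ) ≤ b * ρ := by positivity
    have ha1 := mul_le_mul_of_nonneg_right ha' hρ.le
    have hb1 := mul_le_mul_of_nonneg_right hb' hρ.le
    push_cast at h1 h2 h3 h4
    apply hp2 x y
    · rw [hx₀]; nlinarith
    · nlinarith
    · rw [hy₀]; nlinarith
    · nlinarith
  have upd : ∀ (c : ℕ) (x y : ℝ), Adm s x y →
      ((∃ i : ℤ, i * r j ≤ y ∧ y ≤ (i + 1) * r j ∧ c = col j i) ∨
        (∃ i : ℤ, i * (Ww j * r j) ≤ x ∧ x ≤ (i + 1) * (Ww j * r j) ∧ c = col j i)) →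
      Adm (s.update j c) x y := by
    intro c x y h1 h2 j'
    by_cases hjj : j' = j
    · subst hjj
      rw [Finsupp.update_apply, if_pos rfl]
      exact Or.inr h2
    · rw [Finsupp.update_apply, if_neg hjj]
      exact h1 j'
  have supp : ∀ c j', m < j' → (s.update j c) j' = 0 := by
    intro c j' h
    rw [Finsupp.update_apply, if_neg (by omega)]
    exact hp1 j' (by omega)
  have m0 : ∀ a < n, ∀ b < n, (s, m, i * n + a, l * n + b) ∈ S := by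
    intro a ha b hb
    exact ⟨fun j' h => hp1 j' (by simp only at h; omega), base a ha b hb⟩
  have mH : ∀ a < n, ∀ b < n, (s.update j (b / T % N + 1), m, i * n + a, l * n + b) ∈ S := by
    intro a ha b hb
    refine ⟨supp _, fun x y h1 h2 h3 h4 => upd _ x y (base a ha b hb x y h1 h2 h3 h4) ?_⟩
    have e : n = (P * W * N) * T := by rw [hn]; ring
    have := strip_bounds l (P * W * N) T b hT0 ρ y hρ (by rw [← e]; push_cast at h3 ⊢; exact h3)
      (by rw [← e]; push_cast at h4 ⊢; exact h4)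
    refine Or.inl ⟨l * (P * W * N : ℕ) + (b / T : ℕ), ?_, ?_, ?_⟩
    · rw [hrj]; exact this.1
    · rw [hrj]; exact this.2
    · have := col_eq j l (P * W) (b / T)
      rw [hjN] at this
      rw [← this]; push_cast; rfl
  have mV : ∀ a < n, ∀ b < n,
      (s.update j (a / (W * T) % N + 1), m, i * n + a, l * n + b) ∈ S := by
    intro a ha b hb
    refine ⟨supp _, fun x y h1 h2 h3 h4 => upd _ x y (base a ha b hb x y h1 h2 h3 h4) ?_⟩
    have e : n = (P * N) * (W * T) := by rw [hn]; ring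
    have := strip_bounds i (P * N) (W * T) a (by positivity) ρ x hρ
      (by rw [← e]; push_cast at h1 ⊢; exact h1) (by rw [← e]; push_cast at h2 ⊢; exact h2)
    have e2 : (Ww j : ℝ) * r j = (W * T : ℕ) * ρ := by rw [hjW, hrj]; push_cast; ring
    refine Or.inr ⟨i * (P * N : ℕ) + (a / (W * T) : ℕ), ?_, ?_, ?_⟩
    · rw [e2]; exact this.1
    · rw [e2]; exact this.2
    · have := col_eq j i P (a / (W * T))
      rw [hjN] at this
      rw [← this]; push_cast; rfl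
  have hρ3 : 0 < ρ ^ 3 := by positivity
  have k1 : ∀ (s' : ℕ →₀ ℕ) (a b : ℕ), (s', m, i * n + a, l * n + b) ∈ S →
      en (F s') (x₀ + a * ρ) (y₀ + b * ρ) ρ ≤ α * ρ ^ 3 := by
    intro s' a b h
    have := hα _ h
    simp only [E₁] at this
    rwa [← hρd, ex, ey, div_le_iff₀ hρ3] at this
  have k2 : ∀ (s' : ℕ →₀ ℕ) (a b : ℕ), (s', m, i * n + a, l * n + b) ∈ S →
      en (F s') (x₀ + a * ρ) (y₀ + b * ρ) ρ +
        τ * en (fun y x => F s' x y) (y₀ + b * ρ) (x₀ + a * ρ) ρ ≤ (α + τ * (β + η)) * ρ ^ 3 := by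
    intro s' a b h
    have := hβ _ h
    simp only [E₁, E₂] at this
    rwa [← hρd, ex, ey, ← mul_div_assoc, ← add_div, div_le_iff₀ hρ3] at this
  have hδ : ∀ c x y, ‖F (s.update j (c + 1)) x y - F s x y‖ ≤ 2 * L * (T * ρ) := by
    intro c x y; rw [← hrj]; exact hs _ _ _ _ _
  obtain ⟨v1, v2⟩ := grid_var (F s) (fun c => F (s.update j (c + 1))) L (hx s) (hy s)
    (fun c => hx _) (fun c => hy _) x₀ y₀ ρ hρ P N W T hP hN hW hT0 hδ α β τ η ε hτ hε hε2 n hn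
    (fun a ha b hb => k1 _ a b (m0 a ha b hb)) (fun a ha b hb => k1 _ a b (mH a ha b hb))
    (fun a ha b hb => k2 _ a b (m0 a ha b hb)) (fun a ha b hb => k2 _ a b (mV a ha b hb))
    (by rwa [le_div_iff₀ (by positivity)] at hp3) (by rwa [le_div_iff₀ (by positivity)] at hp4)
    (by
      rw [div_le_iff₀ hε] at hK₁
      have : (K₁ : ℝ) ≤ P := by exact_mod_cast (by omega : K₁ ≤ P)
      nlinarith)
    (by nlinarith)
  obtain ⟨ω, hω1, hω2⟩ := grid_sep (F s) (fun c => F (s.update j (c + 1))) L hL.le (hx s) (hy s)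
    (fun c => hx _) (fun c => hy _) x₀ y₀ ρ hρ P N W T hP hN hW hT0 hδ (5 * ε) (13 * η)
    (by positivity) (by positivity) n hn v1 v2
    (by
      rw [le_div_iff₀ (by positivity)] at hε3
      nlinarith)
    (by rw [hηd]; field_simp; norm_num)
    (by
      have : (K₃ : ℝ) ≤ T := by exact_mod_cast hT.le
      linarith)
    (by
      intro a ha b hb hne
      rw [← hrj]
      refine hlow s j _ _ _ _ (by omega) ?_ ?_
      · refine (mH a ha b hb).2 _ _ ?_ ?_ ?_ ?_ <;> simp only [← hρd, add_mul, ex, ey] <;> linarith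
      · refine (mV a ha b hb).2 _ _ ?_ ?_ ?_ ?_ <;> simp only [← hρd, add_mul, ex, ey] <;> linarith)
  obtain ⟨c, hc, c', hc', hne, hlt⟩ := hpack ω hω1
  linarith [hω2 c hc c' hc' hne]

end Vale.Agent.P208
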