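import Mathlib

/-! Elementary energy estimates used in the construction for P208. -/

open Finset

namespace Vale.Agent.P208

variable {E : Type*} [NormedAddCommGroup E] [InnerProductSpace ℝ E]

lemma sum_range_mul' {M : Type*} [AddCommMonoid M] (φ : ℕ → M) (n K : ℕ) :
    ∑ a ∈ range (n * K), φ a = ∑ u ∈ range n, ∑ a ∈ range K, φ (u * K + a) := by
  induction n with
  | zero => simp
  | succ n ih => rw [Nat.succ_mul, Finset.sum_range_add, ih, Finset.sum_range_succ]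

omit [InnerProductSpace ℝ E] in
lemma jensen (g : ℕ → E) (n : ℕ) :
    ‖g n - g 0‖ ^ 2 ≤ n * ∑ a ∈ range n, ‖g (a + 1) - g a‖ ^ 2 := by
  have h1 : g n - g 0 = ∑ a ∈ range n, (g (a + 1) - g a) := (Finset.sum_range_sub g n).symm
  have h2 : ‖g n - g 0‖ ≤ ∑ a ∈ range n, ‖g (a + 1) - g a‖ := by
    rw [h1]; exact norm_sum_le _ _
  have h3 := sq_sum_le_card_mul_sum_sq (s := range n) (f := fun a => ‖g (a + 1) - g a‖)
  rw [Finset.card_range] at h3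
  calc ‖g n - g 0‖ ^ 2 ≤ (∑ a ∈ range n, ‖g (a + 1) - g a‖) ^ 2 :=
        pow_le_pow_left₀ (norm_nonneg _) h2 2
    _ ≤ _ := h3

omit [InnerProductSpace ℝ E] in
lemma jensen_sub (g : ℕ → E) (n a₁ a₂ : ℕ) (h₁ : a₁ ≤ n) (h₂ : a₂ ≤ n) :
    ‖g a₁ - g a₂‖ ^ 2 ≤ n * ∑ a ∈ range n, ‖g (a + 1) - g a‖ ^ 2 := by
  wlog h : a₂ ≤ a₁ generalizing a₁ a₂
  · have := this a₂ a₁ h₂ h₁ (le_of_not_ge h)
    rwa [norm_sub_rev] at this
  obtain ⟨d, rfl⟩ := Nat.exists_eq_add_of_le h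
  have h3 := jensen (fun a => g (a₂ + a)) d
  simp only [Nat.add_zero] at h3
  have h4 : ∑ a ∈ range d, ‖g (a₂ + (a + 1)) - g (a₂ + a)‖ ^ 2
      ≤ ∑ a ∈ range n, ‖g (a + 1) - g a‖ ^ 2 := by
    obtain ⟨e, rfl⟩ := Nat.exists_eq_add_of_le h₁
    rw [Finset.sum_range_add, Finset.sum_range_add]
    have p1 : 0 ≤ ∑ a ∈ range a₂, ‖g (a + 1) - g a‖ ^ 2 := Finset.sum_nonneg fun _ _ => by positivity
    have p2 : 0 ≤ ∑ a ∈ range e, ‖g (a₂ + d + a + 1) - g (a₂ + d + a)‖ ^ 2 :=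
      Finset.sum_nonneg fun _ _ => by positivity
    have : ∀ a, a₂ + (a + 1) = a₂ + a + 1 := fun a => by ring
    simp only [this]
    linarith
  have h5 : (d : ℝ) ≤ n := by exact_mod_cast (by omega : d ≤ n)
  have p3 : 0 ≤ ∑ a ∈ range d, ‖g (a₂ + (a + 1)) - g (a₂ + a)‖ ^ 2 :=
    Finset.sum_nonneg fun _ _ => by positivity
  calc _ ≤ _ := h3
    _ ≤ _ := mul_le_mul h5 h4 p3 (by positivity)

omit [InnerProductSpace ℝ E] in
lemma sq_norm_add_ge (A e : E) (M δ : ℝ) (hA : ‖A‖ ≤ M) (he : ‖e‖ ≤ δ) :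
    ‖A‖ ^ 2 - 2 * δ * M ≤ ‖A + e‖ ^ 2 := by
  have h1 : ‖A‖ - ‖e‖ ≤ ‖A + e‖ := by
    have := norm_sub_norm_le A (-e)
    simpa [sub_neg_eq_add] using this
  have hA0 := norm_nonneg A
  have he0 := norm_nonneg e
  have h2 := norm_nonneg (A + e)
  by_cases h : ‖e‖ ≤ ‖A‖
  · have : (‖A‖ - ‖e‖) ^ 2 ≤ ‖A + e‖ ^ 2 := pow_le_pow_left₀ (by linarith) h1 2
    nlinarith
  · push Not at h
    nlinarith

lemma parallelogram_var (g g' : ℕ → E) (n : ℕ) (hn : 0 < n) (M δ : ℝ)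
    (hM : ‖g n - g 0‖ ≤ M) (h0 : ‖g' 0 - g 0‖ ≤ δ) (h1 : ‖g' n - g n‖ ≤ δ) :
    ∑ a ∈ range n, ‖(g' (a + 1) - g (a + 1)) - (g' a - g a)‖ ^ 2 ≤
      2 * ∑ a ∈ range n, ‖g' (a + 1) - g' a‖ ^ 2 + 2 * ∑ a ∈ range n, ‖g (a + 1) - g a‖ ^ 2
        - (4 * ‖g n - g 0‖ ^ 2 - 8 * δ * M) / n := by
  have hj := jensen (fun a => g' a + g a) n
  have hpar : ∀ a, ‖(g' (a + 1) - g (a + 1)) - (g' a - g a)‖ ^ 2 +
      ‖(g' (a + 1) + g (a + 1)) - (g' a + g a)‖ ^ 2 =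
      2 * ‖g' (a + 1) - g' a‖ ^ 2 + 2 * ‖g (a + 1) - g a‖ ^ 2 := by
    intro a
    have := parallelogram_law_with_norm ℝ (g' (a + 1) - g' a) (g (a + 1) - g a)
    have e1 : (g' (a + 1) - g (a + 1)) - (g' a - g a) = g' (a + 1) - g' a - (g (a + 1) - g a) := by
      abel
    have e2 : (g' (a + 1) + g (a + 1)) - (g' a + g a) = g' (a + 1) - g' a + (g (a + 1) - g a) := by
      abel
    rw [e1, e2]; nlinarith
  have hsum := Finset.sum_congr (s₁ := range n) rfl (fun a _ => hpar a)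
  rw [Finset.sum_add_distrib, Finset.sum_add_distrib, ← Finset.mul_sum, ← Finset.mul_sum] at hsum
  have hlow : 4 * ‖g n - g 0‖ ^ 2 - 8 * δ * M ≤ ‖g' n + g n - (g' 0 + g 0)‖ ^ 2 := by
    have e3 : g' n + g n - (g' 0 + g 0) =
        ((g n - g 0) + (g n - g 0)) + ((g' n - g n) - (g' 0 - g 0)) := by abel
    have e4 : ‖(g n - g 0) + (g n - g 0)‖ = 2 * ‖g n - g 0‖ := by
      rw [← two_smul ℝ, norm_smul]; simp
    have e5 : ‖(g' n - g n) - (g' 0 - g 0)‖ ≤ 2 * δ := by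
      have := norm_sub_le (g' n - g n) (g' 0 - g 0); linarith
    have := sq_norm_add_ge ((g n - g 0) + (g n - g 0)) ((g' n - g n) - (g' 0 - g 0)) (2 * M)
      (2 * δ) (by rw [e4]; linarith) e5
    rw [e3]; rw [e4] at this; nlinarith
  have hn' : (0 : ℝ) < n := by exact_mod_cast hn
  have : (4 * ‖g n - g 0‖ ^ 2 - 8 * δ * M) / n ≤
      ∑ a ∈ range n, ‖(g' (a + 1) + g (a + 1)) - (g' a + g a)‖ ^ 2 := by
    rw [div_le_iff₀ hn']; nlinarith
  linarith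

/-- Horizontal energy of `Φ` across the square with corner `(x, y)` and side `ρ`. -/
noncomputable def en (Φ : ℝ → ℝ → E) (x y ρ : ℝ) : ℝ :=
  ∫ t in y..(y + ρ), ‖Φ (x + ρ) t - Φ x t‖ ^ 2

omit [InnerProductSpace ℝ E] in
lemma cont_sq {Φ : ℝ → ℝ → E} (hΦ : ∀ x, Continuous (Φ x)) (x x' : ℝ) :
    Continuous fun t => ‖Φ x' t - Φ x t‖ ^ 2 :=
  (((hΦ x').sub (hΦ x)).norm).pow 2

omit [InnerProductSpace ℝ E] in
lemma en_nonneg (Φ : ℝ → ℝ → E) (x y ρ : ℝ) (hρ : 0 ≤ ρ) : 0 ≤ en Φ x y ρ :=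
  intervalIntegral.integral_nonneg (by linarith) fun _ _ => by positivity

omit [InnerProductSpace ℝ E] in
lemma en_le {Φ : ℝ → ℝ → E} (hΦ : ∀ x, Continuous (Φ x)) (L : ℝ)
    (hL : ∀ x x' t, ‖Φ x' t - Φ x t‖ ≤ L * |x' - x|) (x y ρ : ℝ) (hρ : 0 ≤ ρ) :
    en Φ x y ρ ≤ L ^ 2 * ρ ^ 3 := by
  have h := intervalIntegral.integral_mono_on (μ := MeasureTheory.volume) (a := y) (b := y + ρ)
    (f := fun t => ‖Φ (x + ρ) t - Φ x t‖ ^ 2) (g := fun _ => L ^ 2 * ρ ^ 2) (by linarith)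
    ((cont_sq hΦ _ _).intervalIntegrable _ _) (continuous_const.intervalIntegrable _ _)
    (fun t _ => by
      have h1 := hL x (x + ρ) t
      rw [add_sub_cancel_left, abs_of_nonneg hρ] at h1
      have := pow_le_pow_left₀ (norm_nonneg _) h1 2
      nlinarith)
  rw [intervalIntegral.integral_const] at h
  simp only [add_sub_cancel_left, smul_eq_mul] at h
  unfold en
  nlinarith

omit [InnerProductSpace ℝ E] in
lemma sum_en_eq {Φ : ℕ → ℝ → ℝ → E} (hΦ : ∀ a x, Continuous (Φ a x)) (x y ρ : ℝ) (n : ℕ) :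
    ∑ a ∈ range n, en (Φ a) (x + a * ρ) y ρ =
      ∫ t in y..(y + ρ), ∑ a ∈ range n, ‖Φ a (x + (a + 1 : ℕ) * ρ) t - Φ a (x + a * ρ) t‖ ^ 2 := by
  rw [intervalIntegral.integral_finsetSum]
  · refine Finset.sum_congr rfl fun a _ => ?_
    unfold en
    have : x + a * ρ + ρ = x + (a + 1 : ℕ) * ρ := by push_cast; ring
    rw [this]
  · intro a _
    exact (cont_sq (hΦ a) _ _).intervalIntegrable _ _

omit [InnerProductSpace ℝ E] in
lemma sum_rows (φ : ℝ → ℝ) (hφ : Continuous φ) (y ρ : ℝ) (n : ℕ) :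
    ∑ b ∈ range n, ∫ t in (y + b * ρ)..(y + b * ρ + ρ), φ t = ∫ t in y..(y + n * ρ), φ t := by
  have h := intervalIntegral.sum_integral_adjacent_intervals (μ := MeasureTheory.volume)
    (f := φ) (a := fun b : ℕ => y + b * ρ) (n := n) (fun k _ => hφ.intervalIntegrable _ _)
  simp only [Nat.cast_zero, zero_mul, add_zero] at h
  rw [← h]
  refine Finset.sum_congr rfl fun b _ => ?_
  have : y + b * ρ + ρ = y + (b + 1 : ℕ) * ρ := by push_cast; ring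
  rw [this]

/-- Variance bound along rows. -/
lemma var_bound {Φ : ℝ → ℝ → E} {Ψ : ℕ → ℝ → ℝ → E} (hΦ : ∀ x, Continuous (Φ x))
    (hΨ : ∀ b x, Continuous (Ψ b x)) (L δ : ℝ)
    (hL : ∀ x x' t, ‖Φ x' t - Φ x t‖ ≤ L * |x' - x|)
    (hδ : ∀ b x t, ‖Ψ b x t - Φ x t‖ ≤ δ) (x y ρ : ℝ) (hρ : 0 ≤ ρ) (n : ℕ) (hn : 0 < n) :
    ∑ b ∈ range n, ∑ a ∈ range n, en (fun u t => Ψ b u t - Φ u t) (x + a * ρ) (y + b * ρ) ρ ≤
      2 * ∑ b ∈ range n, ∑ a ∈ range n, en (Ψ b) (x + a * ρ) (y + b * ρ) ρ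
      + 2 * ∑ b ∈ range n, ∑ a ∈ range n, en Φ (x + a * ρ) (y + b * ρ) ρ
      - (4 * en Φ x y (n * ρ) - 8 * δ * L * (n * ρ) ^ 2) / n := by
  have hn' : (0 : ℝ) < n := by exact_mod_cast hn
  have hrow : ∀ b : ℕ, ∑ a ∈ range n, en (fun u t => Ψ b u t - Φ u t) (x + a * ρ) (y + b * ρ) ρ ≤
      2 * ∑ a ∈ range n, en (Ψ b) (x + a * ρ) (y + b * ρ) ρ
      + 2 * ∑ a ∈ range n, en Φ (x + a * ρ) (y + b * ρ) ρ
      - (4 * (∫ t in (y + b * ρ)..(y + b * ρ + ρ), ‖Φ (x + n * ρ) t - Φ x t‖ ^ 2)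
        - 8 * δ * L * (n * ρ) * ρ) / n := by
    intro b
    have c1 : ∀ (a : ℕ) (u : ℝ), Continuous ((fun _ : ℕ => fun u t => Ψ b u t - Φ u t) a u) :=
      fun a u => (hΨ b u).sub (hΦ u)
    rw [sum_en_eq c1, sum_en_eq (Φ := fun _ => Ψ b) (fun _ => hΨ b),
      sum_en_eq (Φ := fun _ => Φ) (fun _ => hΦ)]
    have k1 : Continuous fun t => ∑ a ∈ range n,
        ‖(Ψ b (x + (a + 1 : ℕ) * ρ) t - Φ (x + (a + 1 : ℕ) * ρ) t) -
          (Ψ b (x + a * ρ) t - Φ (x + a * ρ) t)‖ ^ 2 :=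
      continuous_finsetSum _ fun a _ => cont_sq (c1 a) _ _
    have k2 : Continuous fun t => ∑ a ∈ range n,
        ‖Ψ b (x + (a + 1 : ℕ) * ρ) t - Ψ b (x + a * ρ) t‖ ^ 2 :=
      continuous_finsetSum _ fun a _ => cont_sq (hΨ b) _ _
    have k3 : Continuous fun t => ∑ a ∈ range n,
        ‖Φ (x + (a + 1 : ℕ) * ρ) t - Φ (x + a * ρ) t‖ ^ 2 :=
      continuous_finsetSum _ fun a _ => cont_sq hΦ _ _
    have k4 : Continuous fun t => ‖Φ (x + n * ρ) t - Φ x t‖ ^ 2 := cont_sq hΦ _ _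
    have h := intervalIntegral.integral_mono_on (μ := MeasureTheory.volume) (a := y + b * ρ)
      (b := y + b * ρ + ρ)
      (f := fun t => ∑ a ∈ range n,
        ‖(Ψ b (x + (a + 1 : ℕ) * ρ) t - Φ (x + (a + 1 : ℕ) * ρ) t) -
          (Ψ b (x + a * ρ) t - Φ (x + a * ρ) t)‖ ^ 2)
      (g := fun t => 2 * (∑ a ∈ range n, ‖Ψ b (x + (a + 1 : ℕ) * ρ) t - Ψ b (x + a * ρ) t‖ ^ 2)
        + 2 * (∑ a ∈ range n, ‖Φ (x + (a + 1 : ℕ) * ρ) t - Φ (x + a * ρ) t‖ ^ 2)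
        - ((4 / n) * ‖Φ (x + n * ρ) t - Φ x t‖ ^ 2 - 8 * δ * L * ρ)) (by linarith)
      (k1.intervalIntegrable _ _)
      ((((continuous_const.mul k2).add (continuous_const.mul k3)).sub
        ((continuous_const.mul k4).sub continuous_const)).intervalIntegrable _ _)
      (fun t _ => by
        have := parallelogram_var (fun a : ℕ => Φ (x + a * ρ) t) (fun a : ℕ => Ψ b (x + a * ρ) t)
          n hn (L * (n * ρ)) δ
          (by
            have h1 := hL (x + (0 : ℕ) * ρ) (x + n * ρ) t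
            have h2 : |x + n * ρ - (x + (0 : ℕ) * ρ)| = n * ρ := by
              rw [abs_of_nonneg] <;> simp
              positivity
            rwa [h2] at h1) (hδ _ _ _) (hδ _ _ _)
        simp only [Nat.cast_zero, zero_mul, add_zero] at this
        have e : (4 * ‖Φ (x + n * ρ) t - Φ x t‖ ^ 2 - 8 * δ * (L * (n * ρ))) / n =
            (4 / n) * ‖Φ (x + n * ρ) t - Φ x t‖ ^ 2 - 8 * δ * L * ρ := by
          field_simp
        rw [e] at this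
        exact this)
    rw [intervalIntegral.integral_sub, intervalIntegral.integral_add, intervalIntegral.integral_sub,
      intervalIntegral.integral_const_mul, intervalIntegral.integral_const_mul,
      intervalIntegral.integral_const_mul, intervalIntegral.integral_const] at h
    · refine h.trans (le_of_eq ?_)
      simp only [add_sub_cancel_left, smul_eq_mul]
      have e : ∀ I : ℝ, 4 / (n : ℝ) * I - ρ * (8 * δ * L * ρ) =
          (4 * I - 8 * δ * L * (n * ρ) * ρ) / n := by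
        intro I; field_simp
      rw [e]
    · exact (continuous_const.mul k4).intervalIntegrable _ _
    · exact continuous_const.intervalIntegrable _ _
    · exact (continuous_const.mul k2).intervalIntegrable _ _
    · exact (continuous_const.mul k3).intervalIntegrable _ _
    · exact ((continuous_const.mul k2).add (continuous_const.mul k3)).intervalIntegrable _ _
    · exact ((continuous_const.mul k4).sub continuous_const).intervalIntegrable _ _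
  have hs := Finset.sum_le_sum (s := range n) fun b _ => hrow b
  refine hs.trans (le_of_eq ?_)
  rw [Finset.sum_sub_distrib, Finset.sum_add_distrib, ← Finset.mul_sum, ← Finset.mul_sum,
    ← Finset.sum_div, Finset.sum_sub_distrib, ← Finset.mul_sum,
    sum_rows _ (cont_sq hΦ _ _)]
  simp only [Finset.sum_const, Finset.card_range, nsmul_eq_mul]
  unfold en
  congr 2
  ring

omit [InnerProductSpace ℝ E] in
/-- Lower bound for the horizontal energy when the map changes from one wide column to the next. -/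
lemma low_bound {Φ : ℝ → ℝ → E} {Ψ : ℕ → ℝ → ℝ → E} (hΦ : ∀ x, Continuous (Φ x))
    (hΨ : ∀ b x, Continuous (Ψ b x)) (L δ : ℝ)
    (hL : ∀ x x' t, ‖Φ x' t - Φ x t‖ ≤ L * |x' - x|)
    (hδ : ∀ b x t, ‖Ψ b x t - Φ x t‖ ≤ δ) (x y ρ : ℝ) (hρ : 0 ≤ ρ) (n' K : ℕ) (hn : 0 < n')
    (hK : 0 < K) :
    en Φ x y ((n' * K : ℕ) * ρ) / (n' * K : ℕ) - 4 * δ * L * ρ * n' * ((n' * K : ℕ) * ρ) ≤
      ∑ b ∈ range (n' * K), ∑ a ∈ range (n' * K), en (Ψ (a / K)) (x + a * ρ) (y + b * ρ) ρ := by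
  have hn' : (0 : ℝ) < n' := by exact_mod_cast hn
  have hK' : (0 : ℝ) < K := by exact_mod_cast hK
  set n := n' * K with hnd
  have hnn : (n : ℝ) = n' * K := by rw [hnd]; push_cast; ring
  have hpt : ∀ t, ‖Φ (x + n * ρ) t - Φ x t‖ ^ 2 / n - 4 * δ * L * ρ * n' ≤
      ∑ a ∈ range n, ‖Ψ (a / K) (x + (a + 1 : ℕ) * ρ) t - Ψ (a / K) (x + a * ρ) t‖ ^ 2 := by
    intro t
    rw [hnd, sum_range_mul']
    have hu : ∀ u : ℕ, (‖Φ (x + ((u + 1) * K : ℕ) * ρ) t - Φ (x + (u * K : ℕ) * ρ) t‖ ^ 2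
        - 4 * δ * L * (K * ρ)) / K ≤
        ∑ a ∈ range K, ‖Ψ ((u * K + a) / K) (x + (u * K + a + 1 : ℕ) * ρ) t -
          Ψ ((u * K + a) / K) (x + (u * K + a : ℕ) * ρ) t‖ ^ 2 := by
      intro u
      have e1 : ∑ a ∈ range K, ‖Ψ ((u * K + a) / K) (x + (u * K + a + 1 : ℕ) * ρ) t -
          Ψ ((u * K + a) / K) (x + (u * K + a : ℕ) * ρ) t‖ ^ 2 =
          ∑ a ∈ range K, ‖Ψ u (x + (u * K + (a + 1) : ℕ) * ρ) t -
          Ψ u (x + (u * K + a : ℕ) * ρ) t‖ ^ 2 := by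
        refine Finset.sum_congr rfl fun a ha => ?_
        have : (u * K + a) / K = u := by
          rw [Finset.mem_range] at ha
          rw [mul_comm, Nat.mul_add_div hK, Nat.div_eq_of_lt ha]; simp
        rw [this, add_assoc]
      rw [e1, div_le_iff₀ hK']
      have hj := jensen (fun a : ℕ => Ψ u (x + (u * K + a : ℕ) * ρ) t) K
      simp only [Nat.add_zero] at hj
      have e2 : (u + 1) * K = u * K + K := by ring
      rw [e2]
      have e3 : Ψ u (x + (u * K + K : ℕ) * ρ) t - Ψ u (x + (u * K : ℕ) * ρ) t =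
          (Φ (x + (u * K + K : ℕ) * ρ) t - Φ (x + (u * K : ℕ) * ρ) t) +
          ((Ψ u (x + (u * K + K : ℕ) * ρ) t - Φ (x + (u * K + K : ℕ) * ρ) t) -
            (Ψ u (x + (u * K : ℕ) * ρ) t - Φ (x + (u * K : ℕ) * ρ) t)) := by abel
      have h1 := hL (x + (u * K : ℕ) * ρ) (x + (u * K + K : ℕ) * ρ) t
      have h2 : |x + (u * K + K : ℕ) * ρ - (x + (u * K : ℕ) * ρ)| = K * ρ := by
        rw [abs_of_nonneg] <;> push_cast <;> nlinarith [mul_nonneg hK'.le hρ]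
      rw [h2] at h1
      have h3 := sq_norm_add_ge _ ((Ψ u (x + (u * K + K : ℕ) * ρ) t - Φ (x + (u * K + K : ℕ) * ρ) t) -
            (Ψ u (x + (u * K : ℕ) * ρ) t - Φ (x + (u * K : ℕ) * ρ) t)) _ (2 * δ) h1
        (by
          have := norm_sub_le (Ψ u (x + (u * K + K : ℕ) * ρ) t - Φ (x + (u * K + K : ℕ) * ρ) t)
            (Ψ u (x + (u * K : ℕ) * ρ) t - Φ (x + (u * K : ℕ) * ρ) t)
          have := hδ u (x + (u * K + K : ℕ) * ρ) t
          have := hδ u (x + (u * K : ℕ) * ρ) t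
          linarith)
      rw [← e3] at h3
      nlinarith
    refine le_trans ?_ (Finset.sum_le_sum fun u _ => hu u)
    rw [← Finset.sum_div, Finset.sum_sub_distrib]
    simp only [Finset.sum_const, Finset.card_range, nsmul_eq_mul]
    have hj := jensen (fun u : ℕ => Φ (x + (u * K : ℕ) * ρ) t) n'
    simp only [zero_mul, Nat.cast_zero, add_zero] at hj
    rw [le_div_iff₀ hK']
    have e4 : (‖Φ (x + (n' * K : ℕ) * ρ) t - Φ x t‖ ^ 2 / (n' * K : ℕ) - 4 * δ * L * ρ * n') * K =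
        ‖Φ (x + (n' * K : ℕ) * ρ) t - Φ x t‖ ^ 2 / n' - n' * (4 * δ * L * (K * ρ)) := by
      push_cast; field_simp
    rw [e4]
    have : ‖Φ (x + (n' * K : ℕ) * ρ) t - Φ x t‖ ^ 2 / n' ≤ ∑ u ∈ range n',
        ‖Φ (x + ((u + 1) * K : ℕ) * ρ) t - Φ (x + (u * K : ℕ) * ρ) t‖ ^ 2 := by
      rw [div_le_iff₀ hn']; linarith
    linarith
  have k4 : Continuous fun t => ‖Φ (x + n * ρ) t - Φ x t‖ ^ 2 := cont_sq hΦ _ _
  have k2 : Continuous fun t => ∑ a ∈ range n,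
      ‖Ψ (a / K) (x + (a + 1 : ℕ) * ρ) t - Ψ (a / K) (x + a * ρ) t‖ ^ 2 :=
    continuous_finsetSum _ fun a _ => cont_sq (hΨ _) _ _
  have e5 : ∑ b ∈ range n, ∑ a ∈ range n, en (Ψ (a / K)) (x + a * ρ) (y + b * ρ) ρ =
      ∫ t in y..(y + n * ρ), ∑ a ∈ range n,
        ‖Ψ (a / K) (x + (a + 1 : ℕ) * ρ) t - Ψ (a / K) (x + a * ρ) t‖ ^ 2 := by
    rw [← sum_rows _ k2]
    refine Finset.sum_congr rfl fun b _ => ?_
    exact sum_en_eq (Φ := fun a => Ψ (a / K)) (fun a => hΨ _) _ _ _ _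
  rw [e5]
  have hnρ : 0 ≤ (n : ℝ) * ρ := by positivity
  have h := intervalIntegral.integral_mono_on (μ := MeasureTheory.volume) (a := y)
      (b := y + n * ρ)
      (f := fun t => ‖Φ (x + n * ρ) t - Φ x t‖ ^ 2 / n - 4 * δ * L * ρ * n')
      (g := fun t => ∑ a ∈ range n,
        ‖Ψ (a / K) (x + (a + 1 : ℕ) * ρ) t - Ψ (a / K) (x + a * ρ) t‖ ^ 2) (by linarith)
      (((k4.div_const _).sub continuous_const).intervalIntegrable _ _) (k2.intervalIntegrable _ _)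
      (fun t _ => hpt t)
  rw [intervalIntegral.integral_sub ((k4.div_const _).intervalIntegrable _ _)
    (continuous_const.intervalIntegrable _ _), intervalIntegral.integral_div,
    intervalIntegral.integral_const] at h
  refine le_trans (le_of_eq ?_) h
  simp only [add_sub_cancel_left, smul_eq_mul]
  unfold en
  ring

omit [InnerProductSpace ℝ E] in
/-- Choice of a good line. -/
lemma good_line {w : ℝ → ℝ → E} (hw : ∀ x, Continuous (w x)) (L' κ : ℝ) (hκ : 0 ≤ κ)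
    (hL' : 0 ≤ L')
    (hL : ∀ x t t', ‖w x t' - w x t‖ ≤ L' * |t' - t|) (X Y ρ : ℝ) (hρ : 0 < ρ) (T K : ℕ)
    (hT : 0 < T)
    (hsum : (K : ℝ) * ∑ b ∈ range T, ∑ a ∈ range K, en w (X + a * ρ) (Y + b * ρ) ρ
      ≤ T * (κ ^ 2 * ρ)) :
    ∃ b < T, ∀ a₁ ≤ K, ∀ a₂ ≤ K,
      ‖w (X + a₁ * ρ) (Y + b * ρ) - w (X + a₂ * ρ) (Y + b * ρ)‖ ≤ κ + 2 * L' * ρ := by
  have h1 : ∃ b ∈ range T, (K : ℝ) * ∑ a ∈ range K, en w (X + a * ρ) (Y + b * ρ) ρ ≤ κ ^ 2 * ρ := by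
    apply Finset.exists_le_of_sum_le (Finset.nonempty_range_iff.mpr hT.ne')
    rw [← Finset.mul_sum]
    simpa using hsum
  obtain ⟨b, hb, hb2⟩ := h1
  refine ⟨b, Finset.mem_range.mp hb, ?_⟩
  rw [sum_en_eq (Φ := fun _ => w) (fun _ => hw)] at hb2
  have k2 : Continuous fun t => ∑ a ∈ range K,
      ‖w (X + (a + 1 : ℕ) * ρ) t - w (X + a * ρ) t‖ ^ 2 :=
    continuous_finsetSum _ fun a _ => cont_sq hw _ _
  obtain ⟨t, ht, hmin⟩ := (isCompact_Icc (a := Y + b * ρ) (b := Y + b * ρ + ρ)).exists_isMinOn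
    (Set.nonempty_Icc.mpr (by linarith)) k2.continuousOn
  have h := intervalIntegral.integral_mono_on (μ := MeasureTheory.volume) (a := Y + b * ρ)
      (b := Y + b * ρ + ρ)
      (f := fun _ => ∑ a ∈ range K, ‖w (X + (a + 1 : ℕ) * ρ) t - w (X + a * ρ) t‖ ^ 2)
      (g := fun t => ∑ a ∈ range K, ‖w (X + (a + 1 : ℕ) * ρ) t - w (X + a * ρ) t‖ ^ 2)
      (by linarith) (continuous_const.intervalIntegrable _ _) (k2.intervalIntegrable _ _)
      (fun s hs => hmin hs)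
  rw [intervalIntegral.integral_const] at h
  simp only [add_sub_cancel_left, smul_eq_mul] at h
  intro a₁ h₁ a₂ h₂
  have hj := jensen_sub (fun a : ℕ => w (X + a * ρ) t) K a₁ a₂ h₁ h₂
  have hK : (0 : ℝ) ≤ K := by positivity
  have h3 : ‖w (X + a₁ * ρ) t - w (X + a₂ * ρ) t‖ ^ 2 ≤ κ ^ 2 := by
    have : ρ * ((K : ℝ) * ∑ a ∈ range K, ‖w (X + (a + 1 : ℕ) * ρ) t - w (X + a * ρ) t‖ ^ 2)
        ≤ ρ * κ ^ 2 := by nlinarith [mul_le_mul_of_nonneg_left h hK]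
    have := le_of_mul_le_mul_left this hρ
    linarith
  have h4 : ‖w (X + a₁ * ρ) t - w (X + a₂ * ρ) t‖ ≤ κ :=
    (pow_le_pow_iff_left₀ (norm_nonneg _) hκ two_ne_zero).mp h3
  have habs : |t - (Y + b * ρ)| ≤ ρ := by
    rw [abs_of_nonneg] <;> linarith [ht.1, ht.2]
  have h5 := (hL (X + a₁ * ρ) (Y + b * ρ) t).trans (mul_le_mul_of_nonneg_left habs hL')
  have h6 := (hL (X + a₂ * ρ) (Y + b * ρ) t).trans (mul_le_mul_of_nonneg_left habs hL')
  have e : w (X + a₁ * ρ) (Y + b * ρ) - w (X + a₂ * ρ) (Y + b * ρ) =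
      (w (X + a₁ * ρ) t - w (X + a₂ * ρ) t) - (w (X + a₁ * ρ) t - w (X + a₁ * ρ) (Y + b * ρ))
      + (w (X + a₂ * ρ) t - w (X + a₂ * ρ) (Y + b * ρ)) := by abel
  rw [e]
  have := norm_add_le ((w (X + a₁ * ρ) t - w (X + a₂ * ρ) t) -
    (w (X + a₁ * ρ) t - w (X + a₁ * ρ) (Y + b * ρ))) (w (X + a₂ * ρ) t - w (X + a₂ * ρ) (Y + b * ρ))
  have := norm_sub_le (w (X + a₁ * ρ) t - w (X + a₂ * ρ) t)
    (w (X + a₁ * ρ) t - w (X + a₁ * ρ) (Y + b * ρ))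
  linarith

/-- The lexicographic supremum. -/
lemma lex_sup {σ : Type*} (S : Set σ) (hS : S.Nonempty) (E₁ E₂ : σ → ℝ) (M : ℝ)
    (h₁ : ∀ p ∈ S, E₁ p ≤ M) (h₂ : ∀ p ∈ S, 0 ≤ E₂ p ∧ E₂ p ≤ M) (η : ℝ) (hη : 0 < η) :
    ∃ α β τ : ℝ, 0 < τ ∧ (∀ q ∈ S, E₁ q ≤ α) ∧ (∀ q ∈ S, E₁ q + τ * E₂ q ≤ α + τ * (β + η)) ∧
      ∀ ε > 0, ∃ p ∈ S, α - ε ≤ E₁ p ∧ β - η ≤ E₂ p := by
  have hM : 0 ≤ M := by
    obtain ⟨p, hp⟩ := hS
    exact (h₂ p hp).1.trans (h₂ p hp).2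
  let s : ℝ → ℝ := fun τ => sSup ((fun p => E₁ p + τ * E₂ p) '' S)
  have hbdd : ∀ τ, 0 ≤ τ → BddAbove ((fun p => E₁ p + τ * E₂ p) '' S) := by
    intro τ hτ
    refine ⟨M + τ * M, ?_⟩
    rintro _ ⟨p, hp, rfl⟩
    have := h₁ p hp
    have := mul_le_mul_of_nonneg_left (h₂ p hp).2 hτ
    simp only; linarith
  have hle : ∀ τ, 0 ≤ τ → ∀ p ∈ S, E₁ p + τ * E₂ p ≤ s τ := fun τ hτ p hp =>
    le_csSup (hbdd τ hτ) ⟨p, hp, rfl⟩
  have happ : ∀ τ, ∀ ε > 0, ∃ p ∈ S, s τ - ε < E₁ p + τ * E₂ p := by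
    intro τ ε hε
    obtain ⟨_, ⟨p, hp, rfl⟩, h⟩ := exists_lt_of_lt_csSup (hS.image fun p => E₁ p + τ * E₂ p)
      (show s τ - ε < s τ by linarith)
    exact ⟨p, hp, h⟩
  have hmono : ∀ τ, 0 ≤ τ → s 0 ≤ s τ := by
    intro τ hτ
    refine csSup_le (hS.image _) ?_
    rintro _ ⟨p, hp, rfl⟩
    have := hle τ hτ p hp
    have := mul_nonneg hτ (h₂ p hp).1
    simp only; linarith
  let G : Set ℝ := (fun τ => (s τ - s 0) / τ) '' Set.Ioi 0
  have hG : G.Nonempty := ⟨_, 1, by simp, rfl⟩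
  have hGb : BddBelow G := by
    refine ⟨0, ?_⟩
    rintro _ ⟨τ, hτ, rfl⟩
    have hτ' : 0 < τ := hτ
    exact div_nonneg (by linarith [hmono τ hτ'.le]) hτ'.le
  obtain ⟨_, ⟨τ, hτ, rfl⟩, hτ2⟩ := exists_lt_of_csInf_lt hG (show sInf G < sInf G + η by linarith)
  have hτ' : 0 < τ := hτ
  refine ⟨s 0, sInf G, τ, hτ', fun q hq => by simpa using hle 0 le_rfl q hq, ?_, ?_⟩
  · intro q hq
    have := hle τ hτ'.le q hq
    simp only at hτ2
    rw [div_lt_iff₀ hτ'] at hτ2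
    nlinarith
  · intro ε hε
    have hpos : 0 < η + M := by linarith
    set τ' := ε / (η + M) with hτ'd
    have hτ'p : 0 < τ' := div_pos hε hpos
    obtain ⟨p, hp, hp2⟩ := happ τ' (τ' * η) (mul_pos hτ'p hη)
    have h3 : sInf G ≤ (s τ' - s 0) / τ' := csInf_le hGb ⟨τ', hτ'p, rfl⟩
    rw [le_div_iff₀ hτ'p] at h3
    have h4 : E₁ p ≤ s 0 := by simpa using hle 0 le_rfl p hp
    have h5 := mul_le_mul_of_nonneg_left (h₂ p hp).2 hτ'p.le
    have h6 : τ' * (η + M) = ε := by rw [hτ'd]; field_simp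
    refine ⟨p, hp, ?_, ?_⟩
    · have := hmono τ' hτ'p.le
      nlinarith
    · have : τ' * (sInf G - η) ≤ τ' * E₂ p := by nlinarith
      exact le_of_mul_le_mul_left this hτ'p

omit [InnerProductSpace ℝ E] in
/-- Packing bound in a proper space. -/
lemma packing [ProperSpace E] (M : ℝ) : ∃ N : ℕ, 0 < N ∧ ∀ ω : ℕ → E, (∀ c < N, ‖ω c‖ ≤ M) →
    ∃ c < N, ∃ c' < N, c ≠ c' ∧ ‖ω c - ω c'‖ < 1 / 2 := by
  classical
  obtain ⟨t, -, htf, hcov⟩ := finite_cover_balls_of_compact (isCompact_closedBall (0 : E) M)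
    (show (0 : ℝ) < 1 / 4 by norm_num)
  refine ⟨htf.toFinset.card + 1, Nat.succ_pos _, fun ω hω => ?_⟩
  have h1 : ∀ c ∈ range (htf.toFinset.card + 1), ∃ z ∈ htf.toFinset, ω c ∈ Metric.ball z (1 / 4) := by
    intro c hc
    have := hcov (show ω c ∈ Metric.closedBall (0 : E) M by
      simpa using hω c (Finset.mem_range.mp hc))
    simpa using this
  choose! z hz1 hz2 using h1
  obtain ⟨c, hc, c', hc', hne, heq⟩ := Finset.exists_ne_map_eq_of_card_lt_of_maps_to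
    (s := range (htf.toFinset.card + 1)) (t := htf.toFinset) (f := z) (by simp) hz1
  refine ⟨c, Finset.mem_range.mp hc, c', Finset.mem_range.mp hc', hne, ?_⟩
  have a1 := hz2 c hc
  have a2 := hz2 c' hc'
  rw [← heq] at a2
  rw [Metric.mem_ball, dist_eq_norm] at a1 a2
  have : ω c - ω c' = (ω c - z c) - (ω c' - z c) := by abel
  rw [this]
  have := norm_sub_le (ω c - z c) (ω c' - z c)
  linarith

end Vale.Agent.P208
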