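import Vale.Agent.P208.Energy

/-! The grid argument for P208. -/

open Finset

namespace Vale.Agent.P208

variable {E : Type*} [NormedAddCommGroup E] [InnerProductSpace ℝ E]

lemma sub_sum_le (J : ℕ → ℝ) (hJ : ∀ b, 0 ≤ J b) (N T c : ℕ) (hc : c < N) :
    ∑ b ∈ range T, J (c * T + b) ≤ ∑ b ∈ range (N * T), J b := by
  rw [sum_range_mul']
  exact Finset.single_le_sum (f := fun u => ∑ b ∈ range T, J (u * T + b))
    (fun u _ => Finset.sum_nonneg fun b _ => hJ _) (Finset.mem_range.mpr hc)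

lemma colour_eq (B N T c b : ℕ) (hc : c < N) (hb : b < T) :
    ((B * (N * T) + (c * T + b)) / T) % N = c := by
  have hT : 0 < T := by omega
  have : B * (N * T) + (c * T + b) = b + (B * N + c) * T := by ring
  rw [this, Nat.add_mul_div_right _ _ hT, Nat.div_eq_of_lt hb, zero_add, mul_comm B N,
    Nat.mul_add_mod, Nat.mod_eq_of_lt hc]

lemma block_choice (J : ℕ → ℕ → ℝ) (P₁ K₁ P₂ K₂ : ℕ) (h₁ : 0 < P₁) (h₂ : 0 < P₂) (C : ℝ)
    (h : ∑ a ∈ range (P₁ * K₁), ∑ b ∈ range (P₂ * K₂), J a b ≤ (P₁ * P₂ : ℝ) * C) :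
    ∃ A < P₁, ∃ B < P₂, ∑ a ∈ range K₁, ∑ b ∈ range K₂, J (A * K₁ + a) (B * K₂ + b) ≤ C := by
  rw [sum_range_mul'] at h
  obtain ⟨A, hA, hA2⟩ : ∃ A ∈ range P₁, ∑ a ∈ range K₁, ∑ b ∈ range (P₂ * K₂),
      J (A * K₁ + a) b ≤ P₂ * C := by
    apply Finset.exists_le_of_sum_le (Finset.nonempty_range_iff.mpr h₁.ne')
    simp only [Finset.sum_const, Finset.card_range, nsmul_eq_mul]
    linarith
  rw [Finset.sum_comm, sum_range_mul'] at hA2
  obtain ⟨B, hB, hB2⟩ : ∃ B ∈ range P₂, ∑ b ∈ range K₂, ∑ a ∈ range K₁,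
      J (A * K₁ + a) (B * K₂ + b) ≤ C := by
    apply Finset.exists_le_of_sum_le (Finset.nonempty_range_iff.mpr h₂.ne')
    simp only [Finset.sum_const, Finset.card_range, nsmul_eq_mul]
    linarith
  exact ⟨A, Finset.mem_range.mp hA, B, Finset.mem_range.mp hB, by rwa [Finset.sum_comm]⟩

lemma dsum_le (J : ℕ → ℕ → ℝ) (n : ℕ) (C : ℝ) (h : ∀ a < n, ∀ b < n, J a b ≤ C) :
    ∑ b ∈ range n, ∑ a ∈ range n, J a b ≤ (n : ℝ) ^ 2 * C := by
  have : ∑ b ∈ range n, ∑ a ∈ range n, J a b ≤ ∑ b ∈ range n, ∑ a ∈ range n, C :=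
    Finset.sum_le_sum fun b hb => Finset.sum_le_sum fun a ha =>
      h a (Finset.mem_range.mp ha) b (Finset.mem_range.mp hb)
  simp only [Finset.sum_const, Finset.card_range, nsmul_eq_mul] at this
  linarith

omit [InnerProductSpace ℝ E] in
lemma cont_of_lip {g : ℝ → E} {L : ℝ} (h : ∀ t t', ‖g t' - g t‖ ≤ L * |t' - t|) :
    Continuous g := by
  have : LipschitzWith (Real.toNNReal L) g := by
    refine LipschitzWith.of_dist_le_mul fun a b => ?_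
    rw [dist_eq_norm, Real.dist_eq]
    exact (h b a).trans (mul_le_mul_of_nonneg_right (Real.le_coe_toNNReal L) (abs_nonneg _))
  exact this.continuous

set_option maxHeartbeats 800000 in
/-- Total variance bounds on a fine grid. -/
lemma grid_var (Φ : ℝ → ℝ → E) (G : ℕ → ℝ → ℝ → E) (L : ℝ)
    (hΦx : ∀ x x' y, ‖Φ x' y - Φ x y‖ ≤ L * |x' - x|)
    (hΦy : ∀ x y y', ‖Φ x y' - Φ x y‖ ≤ L * |y' - y|)
    (hGx : ∀ c x x' y, ‖G c x' y - G c x y‖ ≤ L * |x' - x|)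
    (hGy : ∀ c x y y', ‖G c x y' - G c x y‖ ≤ L * |y' - y|)
    (x₀ y₀ ρ : ℝ) (hρ : 0 < ρ) (P N W T : ℕ) (hP : 0 < P) (hN : 0 < N) (hW : 0 < W) (hT : 0 < T)
    (hδ : ∀ c x y, ‖G c x y - Φ x y‖ ≤ 2 * L * (T * ρ))
    (α β τ η ε : ℝ) (hτ : 0 < τ) (hε : 0 < ε) (hεη : ε ≤ η)
    (n : ℕ) (hn : n = P * (N * W * T))
    (c1 : ∀ a < n, ∀ b < n, en Φ (x₀ + a * ρ) (y₀ + b * ρ) ρ ≤ α * ρ ^ 3)
    (c2 : ∀ a < n, ∀ b < n, en (G (b / T % N)) (x₀ + a * ρ) (y₀ + b * ρ) ρ ≤ α * ρ ^ 3)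
    (c3 : ∀ a < n, ∀ b < n, en Φ (x₀ + a * ρ) (y₀ + b * ρ) ρ +
      τ * en (fun y x => Φ x y) (y₀ + b * ρ) (x₀ + a * ρ) ρ ≤ (α + τ * (β + η)) * ρ ^ 3)
    (c4 : ∀ a < n, ∀ b < n, en (G (a / (W * T) % N)) (x₀ + a * ρ) (y₀ + b * ρ) ρ +
      τ * en (fun y x => G (a / (W * T) % N) x y) (y₀ + b * ρ) (x₀ + a * ρ) ρ
        ≤ (α + τ * (β + η)) * ρ ^ 3)
    (p1 : (α - ε) * (n * ρ) ^ 3 ≤ en Φ x₀ y₀ (n * ρ))
    (p2 : (β - η) * (n * ρ) ^ 3 ≤ en (fun y x => Φ x y) y₀ x₀ (n * ρ))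
    (hPL : 16 * L ^ 2 ≤ ε * P) (hWL : 8 * L ^ 2 ≤ (τ * η - ε) * W) :
    (∑ b ∈ range n, ∑ a ∈ range n,
      en (fun u t => G (b / T % N) u t - Φ u t) (x₀ + a * ρ) (y₀ + b * ρ) ρ
        ≤ (n : ℝ) ^ 2 * (5 * ε * ρ ^ 3)) ∧
    (∑ a ∈ range n, ∑ b ∈ range n,
      en (fun u t => G (a / (W * T) % N) t u - Φ t u) (y₀ + b * ρ) (x₀ + a * ρ) ρ
        ≤ (n : ℝ) ^ 2 * (13 * η * ρ ^ 3)) := by
  have hn0 : 0 < n := by rw [hn]; positivity
  have hn' : (0 : ℝ) < n := by exact_mod_cast hn0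
  have hP' : (0 : ℝ) < P := by exact_mod_cast hP
  have hN' : (1 : ℝ) ≤ N := by exact_mod_cast hN
  have hW' : (1 : ℝ) ≤ W := by exact_mod_cast hW
  have hT' : (0 : ℝ) < T := by exact_mod_cast hT
  have hnR : (n : ℝ) = P * (N * W * T) := by rw [hn]; push_cast; ring
  have cΦ : ∀ x, Continuous (Φ x) := fun x => cont_of_lip (hΦy x)
  have cG : ∀ c x, Continuous (G c x) := fun c x => cont_of_lip (hGy c x)
  have cΦ' : ∀ y, Continuous (fun x => Φ x y) := fun y => cont_of_lip fun t t' => hΦx t t' y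
  have cG' : ∀ c y, Continuous (fun x => G c x y) :=
    fun c y => cont_of_lip fun t t' => hGx c t t' y
  have herr : 16 * L ^ 2 * T ≤ ε * n := by
    rw [hnR]
    have h1 : (1 : ℝ) ≤ N * W := by nlinarith
    have h2 : ε * P * T ≤ ε * P * T * (N * W) :=
      le_mul_of_one_le_right (by positivity) h1
    nlinarith
  have hsimp : ∀ (e γ : ℝ), γ * (n * ρ) ^ 3 ≤ e →
      (n : ℝ) ^ 2 * ((4 * γ - ε) * ρ ^ 3) ≤
        (4 * e - 8 * (2 * L * (T * ρ)) * L * (n * ρ) ^ 2) / n := by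
    intro e γ he
    rw [le_div_iff₀ hn']
    have h3 : 0 < (n : ℝ) ^ 2 * ρ ^ 3 := by positivity
    nlinarith [mul_le_mul_of_nonneg_right herr h3.le]
  constructor
  · have hv := var_bound (Φ := Φ) (Ψ := fun b => G (b / T % N)) cΦ (fun b => cG _) L
      (2 * L * (T * ρ)) hΦx (fun b => hδ _) x₀ y₀ ρ hρ.le n hn0
    have s1 := dsum_le (fun a b => en Φ (x₀ + a * ρ) (y₀ + b * ρ) ρ) n _ c1
    have s2 := dsum_le (fun a b => en (G (b / T % N)) (x₀ + a * ρ) (y₀ + b * ρ) ρ) n _ c2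
    have s3 := hsimp _ _ p1
    nlinarith
  · have hnn : n = (P * N) * (W * T) := by rw [hn]; ring
    have hlow : ∀ Ψ : ℕ → ℝ → ℝ → E, (∀ b x, Continuous (Ψ b x)) →
        (∀ b x t, ‖Ψ b x t - Φ x t‖ ≤ 2 * L * (T * ρ)) →
        (n : ℝ) ^ 2 * ((α - τ * η) * ρ ^ 3) ≤
          ∑ b ∈ range n, ∑ a ∈ range n, en (Ψ (a / (W * T))) (x₀ + a * ρ) (y₀ + b * ρ) ρ := by
      intro Ψ h1 h2
      have hl := low_bound cΦ h1 L _ hΦx h2 x₀ y₀ ρ hρ.le (P * N) (W * T) (by positivity)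
        (by positivity)
      rw [← hnn] at hl
      refine le_trans ?_ hl
      have a1 : (n : ℝ) ^ 2 * ((α - ε) * ρ ^ 3) ≤ en Φ x₀ y₀ (n * ρ) / n := by
        rw [le_div_iff₀ hn']; nlinarith
      have a2 : 4 * (2 * L * (T * ρ)) * L * ρ * ((P * N : ℕ) : ℝ) * (n * ρ) ≤
          (n : ℝ) ^ 2 * ((τ * η - ε) * ρ ^ 3) := by
        push_cast
        have h3 : 0 ≤ (n : ℝ) * (P * N * T) * ρ ^ 3 := by positivity
        have h4 := mul_le_mul_of_nonneg_right hWL h3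
        have h5 : (n : ℝ) ^ 2 * ((τ * η - ε) * ρ ^ 3) =
            (τ * η - ε) * W * (n * (P * N * T) * ρ ^ 3) := by
          rw [pow_two]; nth_rewrite 2 [hnR]; ring
        rw [h5]; nlinarith
      nlinarith
    have l1 := hlow (fun _ => Φ) (fun _ => cΦ) (fun b x t => by
      have := hδ 0 x t
      simp only [sub_self, norm_zero]
      exact (norm_nonneg _).trans this)
    have l2 := hlow (fun u => G (u % N)) (fun b => cG _) (fun b => hδ _)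
    have s3 := dsum_le (fun a b => en Φ (x₀ + a * ρ) (y₀ + b * ρ) ρ +
      τ * en (fun y x => Φ x y) (y₀ + b * ρ) (x₀ + a * ρ) ρ) n _ c3
    have s4 := dsum_le (fun a b => en (G (a / (W * T) % N)) (x₀ + a * ρ) (y₀ + b * ρ) ρ +
      τ * en (fun y x => G (a / (W * T) % N) x y) (y₀ + b * ρ) (x₀ + a * ρ) ρ) n _ c4
    simp only [Finset.sum_add_distrib, ← Finset.mul_sum] at s3 s4
    have t3 : ∑ b ∈ range n, ∑ a ∈ range n, en (fun y x => Φ x y) (y₀ + b * ρ) (x₀ + a * ρ) ρ ≤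
        (n : ℝ) ^ 2 * ((β + 2 * η) * ρ ^ 3) := by
      refine le_of_mul_le_mul_left ?_ hτ
      nlinarith
    have t4 : ∑ b ∈ range n, ∑ a ∈ range n,
        en (fun y x => G (a / (W * T) % N) x y) (y₀ + b * ρ) (x₀ + a * ρ) ρ ≤
        (n : ℝ) ^ 2 * ((β + 2 * η) * ρ ^ 3) := by
      refine le_of_mul_le_mul_left ?_ hτ
      nlinarith
    rw [Finset.sum_comm] at t3 t4
    have hv := var_bound (Φ := fun y x => Φ x y) (Ψ := fun a y x => G (a / (W * T) % N) x y)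
      cΦ' (fun b => cG' _) L (2 * L * (T * ρ)) (fun y y' x => hΦy x y y')
      (fun b y x => hδ _ x y) y₀ x₀ ρ hρ.le n hn0
    have s5 := hsimp _ _ p2
    have h6 : 0 ≤ (n : ℝ) ^ 2 * ρ ^ 3 := by positivity
    have h7 := mul_le_mul_of_nonneg_right hεη h6
    have h8 : 2 * ((n : ℝ) ^ 2 * ((β + 2 * η) * ρ ^ 3)) + 2 * ((n : ℝ) ^ 2 * ((β + 2 * η) * ρ ^ 3))
        - (n : ℝ) ^ 2 * ((4 * (β - η) - ε) * ρ ^ 3) =
        12 * (η * ((n : ℝ) ^ 2 * ρ ^ 3)) + ε * ((n : ℝ) ^ 2 * ρ ^ 3) := by ring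
    have h9 : (n : ℝ) ^ 2 * (13 * η * ρ ^ 3) = 13 * (η * ((n : ℝ) ^ 2 * ρ ^ 3)) := by ring
    rw [h9]
    linarith

set_option maxHeartbeats 800000 in
/-- From small variance to a separated family. -/
lemma grid_sep (Φ : ℝ → ℝ → E) (G : ℕ → ℝ → ℝ → E) (L : ℝ) (hL : 0 ≤ L)
    (hΦx : ∀ x x' y, ‖Φ x' y - Φ x y‖ ≤ L * |x' - x|)
    (hΦy : ∀ x y y', ‖Φ x y' - Φ x y‖ ≤ L * |y' - y|)
    (hGx : ∀ c x x' y, ‖G c x' y - G c x y‖ ≤ L * |x' - x|)
    (hGy : ∀ c x y y', ‖G c x y' - G c x y‖ ≤ L * |y' - y|)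
    (x₀ y₀ ρ : ℝ) (hρ : 0 < ρ) (P N W T : ℕ) (hP : 0 < P) (hN : 0 < N) (hW : 0 < W) (hT : 0 < T)
    (hδ : ∀ c x y, ‖G c x y - Φ x y‖ ≤ 2 * L * (T * ρ))
    (ε₁ η₁ : ℝ) (hε : 0 < ε₁) (hη : 0 < η₁)
    (n : ℕ) (hn : n = P * (N * W * T))
    (v1 : ∑ b ∈ range n, ∑ a ∈ range n,
      en (fun u t => G (b / T % N) u t - Φ u t) (x₀ + a * ρ) (y₀ + b * ρ) ρ
        ≤ (n : ℝ) ^ 2 * (ε₁ * ρ ^ 3))
    (v2 : ∑ a ∈ range n, ∑ b ∈ range n,
      en (fun u t => G (a / (W * T) % N) t u - Φ t u) (y₀ + b * ρ) (x₀ + a * ρ) ρ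
        ≤ (n : ℝ) ^ 2 * (η₁ * ρ ^ 3))
    (hε₁ : 128 * (N : ℝ) ^ 3 * (W : ℝ) ^ 2 * ε₁ ≤ 1) (hη₁ : 128 * (N : ℝ) ^ 3 * η₁ ≤ 1)
    (hTL : 32 * L ≤ T)
    (low : ∀ a < n, ∀ b < n, b / T % N ≠ a / (W * T) % N →
      T * ρ ≤ ‖G (b / T % N) (x₀ + a * ρ) (y₀ + b * ρ) -
        G (a / (W * T) % N) (x₀ + a * ρ) (y₀ + b * ρ)‖) :
    ∃ ω : ℕ → E, (∀ c < N, ‖ω c‖ ≤ 2 * L) ∧
      ∀ c < N, ∀ c' < N, c ≠ c' → 1 / 2 ≤ ‖ω c - ω c'‖ := by
  have hP' : (0 : ℝ) < P := by exact_mod_cast hP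
  have hN' : (0 : ℝ) < N := by exact_mod_cast hN
  have hW' : (0 : ℝ) < W := by exact_mod_cast hW
  have hT' : (0 : ℝ) < T := by exact_mod_cast hT
  have hnR : (n : ℝ) = P * (N * W * T) := by rw [hn]; push_cast; ring
  have cΦ : ∀ x, Continuous (Φ x) := fun x => cont_of_lip (hΦy x)
  have cG : ∀ c x, Continuous (G c x) := fun c x => cont_of_lip (hGy c x)
  have cΦ' : ∀ y, Continuous (fun x => Φ x y) := fun y => cont_of_lip fun t t' => hΦx t t' y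
  have cG' : ∀ c y, Continuous (fun x => G c x y) :=
    fun c y => cont_of_lip fun t t' => hGx c t t' y
  set IH : ℕ → ℕ → ℝ := fun a b =>
    en (fun u t => G (b / T % N) u t - Φ u t) (x₀ + a * ρ) (y₀ + b * ρ) ρ with hIH
  set IV : ℕ → ℕ → ℝ := fun a b =>
    en (fun u t => G (a / (W * T) % N) t u - Φ t u) (y₀ + b * ρ) (x₀ + a * ρ) ρ with hIV
  have IH0 : ∀ a b, 0 ≤ IH a b := fun a b => en_nonneg _ _ _ _ hρ.le
  have IV0 : ∀ a b, 0 ≤ IV a b := fun a b => en_nonneg _ _ _ _ hρ.le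
  have hn1 : n = P * (N * (W * T)) := by rw [hn]; ring
  have hn2 : n = (P * W) * (N * T) := by rw [hn]; ring
  obtain ⟨A, hA, B, hB, hAB⟩ := block_choice (fun a b => η₁ * IH a b + ε₁ * IV a b)
    P (N * (W * T)) (P * W) (N * T) hP (by positivity)
    (2 * ε₁ * η₁ * (N * (W * T)) * (N * T) * ρ ^ 3) (by
      rw [← hn1, ← hn2]
      simp only [Finset.sum_add_distrib, ← Finset.mul_sum]
      rw [Finset.sum_comm] at v1
      have a1 := mul_le_mul_of_nonneg_left v1 hη.le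
      have a2 := mul_le_mul_of_nonneg_left v2 hε.le
      have a3 : (P : ℝ) * ((P * W : ℕ) : ℝ) * (2 * ε₁ * η₁ * (N * (W * T)) * (N * T) * ρ ^ 3) =
          η₁ * ((n : ℝ) ^ 2 * (ε₁ * ρ ^ 3)) + ε₁ * ((n : ℝ) ^ 2 * (η₁ * ρ ^ 3)) := by
        rw [hnR]; push_cast; ring
      rw [a3]
      exact add_le_add a1 a2)
  simp only [Finset.sum_add_distrib, ← Finset.mul_sum] at hAB
  have sH0 : 0 ≤ ∑ a ∈ range (N * (W * T)), ∑ b ∈ range (N * T),
      IH (A * (N * (W * T)) + a) (B * (N * T) + b) :=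
    Finset.sum_nonneg fun _ _ => Finset.sum_nonneg fun _ _ => IH0 _ _
  have sV0 : 0 ≤ ∑ a ∈ range (N * (W * T)), ∑ b ∈ range (N * T),
      IV (A * (N * (W * T)) + a) (B * (N * T) + b) :=
    Finset.sum_nonneg fun _ _ => Finset.sum_nonneg fun _ _ => IV0 _ _
  have bH : ∑ a ∈ range (N * (W * T)), ∑ b ∈ range (N * T),
      IH (A * (N * (W * T)) + a) (B * (N * T) + b) ≤
        2 * ε₁ * (N * (W * T)) * (N * T) * ρ ^ 3 := by
    refine le_of_mul_le_mul_left ?_ hη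
    nlinarith [mul_nonneg hε.le sV0]
  have bV : ∑ a ∈ range (N * (W * T)), ∑ b ∈ range (N * T),
      IV (A * (N * (W * T)) + a) (B * (N * T) + b) ≤
        2 * η₁ * (N * (W * T)) * (N * T) * ρ ^ 3 := by
    refine le_of_mul_le_mul_left ?_ hε
    nlinarith [mul_nonneg hη.le sH0]
  have lipw : ∀ (g g' : ℝ → E), (∀ t t', ‖g t' - g t‖ ≤ L * |t' - t|) →
      (∀ t t', ‖g' t' - g' t‖ ≤ L * |t' - t|) →
      ∀ t t', ‖(g' t' - g t') - (g' t - g t)‖ ≤ 2 * L * |t' - t| := by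
    intro g g' h1 h2 t t'
    have e : (g' t' - g t') - (g' t - g t) = (g' t' - g' t) - (g t' - g t) := by abel
    rw [e]
    have := norm_sub_le (g' t' - g' t) (g t' - g t)
    have := h1 t t'
    have := h2 t t'
    linarith
  have rows : ∀ c < N, ∃ b < T, ∀ a₁ ≤ N * (W * T), ∀ a₂ ≤ N * (W * T),
      ‖(G c (x₀ + (A * (N * (W * T)) + a₁ : ℕ) * ρ) (y₀ + (B * (N * T) + (c * T + b) : ℕ) * ρ)
          - Φ (x₀ + (A * (N * (W * T)) + a₁ : ℕ) * ρ) (y₀ + (B * (N * T) + (c * T + b) : ℕ) * ρ)) -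
        (G c (x₀ + (A * (N * (W * T)) + a₂ : ℕ) * ρ) (y₀ + (B * (N * T) + (c * T + b) : ℕ) * ρ)
          - Φ (x₀ + (A * (N * (W * T)) + a₂ : ℕ) * ρ) (y₀ + (B * (N * T) + (c * T + b) : ℕ) * ρ))‖
        ≤ T * ρ / 8 + 2 * (2 * L) * ρ := by
    intro c hc
    have ex : ∀ a : ℕ, x₀ + (A * (N * (W * T)) + a : ℕ) * ρ =
        x₀ + (A * (N * (W * T)) : ℕ) * ρ + a * ρ := fun a => by push_cast; ring
    have ey : ∀ b : ℕ, y₀ + (B * (N * T) + (c * T + b) : ℕ) * ρ =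
        y₀ + (B * (N * T) + c * T : ℕ) * ρ + b * ρ := fun b => by push_cast; ring
    simp only [ex, ey]
    refine good_line (w := fun u t => G c u t - Φ u t) (fun x => (cG c x).sub (cΦ x)) (2 * L)
      (T * ρ / 8) (by positivity) (by positivity)
      (fun x => lipw (Φ x) (G c x) (hΦy x) (hGy c x)) _ _ ρ hρ T (N * (W * T)) hT ?_
    have h1 := sub_sum_le (fun b => ∑ a ∈ range (N * (W * T)),
      IH (A * (N * (W * T)) + a) (B * (N * T) + b))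
      (fun b => Finset.sum_nonneg fun _ _ => IH0 _ _) N T c hc
    rw [Finset.sum_comm] at bH
    have h2 : ∑ b ∈ range T, ∑ a ∈ range (N * (W * T)), en (fun u t => G c u t - Φ u t)
        (x₀ + (A * (N * (W * T)) : ℕ) * ρ + a * ρ) (y₀ + (B * (N * T) + c * T : ℕ) * ρ + b * ρ) ρ =
        ∑ b ∈ range T, ∑ a ∈ range (N * (W * T)),
          IH (A * (N * (W * T)) + a) (B * (N * T) + (c * T + b)) := by
      refine Finset.sum_congr rfl fun b hb => Finset.sum_congr rfl fun a _ => ?_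
      simp only [hIH]
      rw [colour_eq B N T c b hc (Finset.mem_range.mp hb), ex, ey]
    rw [h2]
    have h3 := h1.trans bH
    have h4 : (0 : ℝ) ≤ ((N * (W * T) : ℕ) : ℝ) := by positivity
    refine (mul_le_mul_of_nonneg_left h3 h4).trans ?_
    push_cast
    have h5 : (0 : ℝ) ≤ (T : ℝ) ^ 3 * ρ ^ 3 / 64 := by positivity
    nlinarith [mul_le_mul_of_nonneg_right hε₁ h5]
  have cols : ∀ c < N, ∃ a < W * T, ∀ b₁ ≤ N * T, ∀ b₂ ≤ N * T,
      ‖(G c (x₀ + (A * (N * (W * T)) + (c * (W * T) + a) : ℕ) * ρ) (y₀ + (B * (N * T) + b₁ : ℕ) * ρ)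
          - Φ (x₀ + (A * (N * (W * T)) + (c * (W * T) + a) : ℕ) * ρ)
            (y₀ + (B * (N * T) + b₁ : ℕ) * ρ)) -
        (G c (x₀ + (A * (N * (W * T)) + (c * (W * T) + a) : ℕ) * ρ)
            (y₀ + (B * (N * T) + b₂ : ℕ) * ρ)
          - Φ (x₀ + (A * (N * (W * T)) + (c * (W * T) + a) : ℕ) * ρ)
            (y₀ + (B * (N * T) + b₂ : ℕ) * ρ))‖
        ≤ T * ρ / 8 + 2 * (2 * L) * ρ := by
    intro c hc
    have ex : ∀ a : ℕ, x₀ + (A * (N * (W * T)) + (c * (W * T) + a) : ℕ) * ρ =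
        x₀ + (A * (N * (W * T)) + c * (W * T) : ℕ) * ρ + a * ρ := fun a => by push_cast; ring
    have ey : ∀ b : ℕ, y₀ + (B * (N * T) + b : ℕ) * ρ =
        y₀ + (B * (N * T) : ℕ) * ρ + b * ρ := fun b => by push_cast; ring
    simp only [ex, ey]
    refine good_line (w := fun u t => G c t u - Φ t u) (fun x => (cG' c x).sub (cΦ' x)) (2 * L)
      (T * ρ / 8) (by positivity) (by positivity)
      (fun y => lipw (fun t => Φ t y) (fun t => G c t y) (fun t t' => hΦx t t' y)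
        (fun t t' => hGx c t t' y)) _ _ ρ hρ (W * T) (N * T) (by positivity) ?_
    have h1 := sub_sum_le (fun a => ∑ b ∈ range (N * T),
      IV (A * (N * (W * T)) + a) (B * (N * T) + b))
      (fun b => Finset.sum_nonneg fun _ _ => IV0 _ _) N (W * T) c hc
    have h2 : ∑ a ∈ range (W * T), ∑ b ∈ range (N * T), en (fun u t => G c t u - Φ t u)
        (y₀ + (B * (N * T) : ℕ) * ρ + b * ρ)
        (x₀ + (A * (N * (W * T)) + c * (W * T) : ℕ) * ρ + a * ρ) ρ =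
        ∑ a ∈ range (W * T), ∑ b ∈ range (N * T),
          IV (A * (N * (W * T)) + (c * (W * T) + a)) (B * (N * T) + b) := by
      refine Finset.sum_congr rfl fun a ha => Finset.sum_congr rfl fun b _ => ?_
      simp only [hIV]
      rw [colour_eq A N (W * T) c a hc (Finset.mem_range.mp ha), ex, ey]
    rw [h2]
    have h3 := h1.trans bV
    have h4 : (0 : ℝ) ≤ ((N * T : ℕ) : ℝ) := by positivity
    refine (mul_le_mul_of_nonneg_left h3 h4).trans ?_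
    push_cast
    have h5 : (0 : ℝ) ≤ W * (T : ℝ) ^ 3 * ρ ^ 3 / 64 := by positivity
    nlinarith [mul_le_mul_of_nonneg_right hη₁ h5]
  choose! bb hb1 hb2 using rows
  choose! aa ha1 ha2 using cols
  set xi : ℕ → ℕ := fun c => A * (N * (W * T)) + (c * (W * T) + aa c) with hxi
  set yi : ℕ → ℕ := fun c => B * (N * T) + (c * T + bb c) with hyi
  have hrpos : 0 < (T : ℝ) * ρ := by positivity
  have bx : ∀ c < N, c * (W * T) + aa c < N * (W * T) := by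
    intro c hc
    have := ha1 c hc
    have : (c + 1) * (W * T) ≤ N * (W * T) := Nat.mul_le_mul_right _ hc
    nlinarith
  have by' : ∀ c < N, c * T + bb c < N * T := by
    intro c hc
    have := hb1 c hc
    have : (c + 1) * T ≤ N * T := Nat.mul_le_mul_right _ hc
    nlinarith
  have hxn : ∀ c < N, xi c < n := by
    intro c hc
    have := bx c hc
    have h2 : (A + 1) * (N * (W * T)) ≤ P * (N * (W * T)) := Nat.mul_le_mul_right _ hA
    simp only [hxi]; rw [hn1]; nlinarith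
  have hyn : ∀ c < N, yi c < n := by
    intro c hc
    have := by' c hc
    have h2 : (B + 1) * (N * T) ≤ (P * W) * (N * T) := Nat.mul_le_mul_right _ hB
    simp only [hyi]; rw [hn2]; nlinarith
  refine ⟨fun c => (1 / (T * ρ)) • (G c (x₀ + xi c * ρ) (y₀ + yi c * ρ) -
    Φ (x₀ + xi c * ρ) (y₀ + yi c * ρ)), ?_, ?_⟩
  · intro c _
    rw [norm_smul, Real.norm_eq_abs, abs_of_pos (by positivity), one_div, inv_mul_le_iff₀ hrpos]
    have := hδ c (x₀ + xi c * ρ) (y₀ + yi c * ρ)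
    linarith
  · intro c hc c' hc' hne
    rw [← smul_sub, norm_smul, Real.norm_eq_abs, abs_of_pos (by positivity), one_div (T * ρ),
      le_inv_mul_iff₀ hrpos]
    have e1 : yi c / T % N = c := colour_eq B N T c _ hc (hb1 c hc)
    have e2 : xi c' / (W * T) % N = c' := colour_eq A N (W * T) c' _ hc' (ha1 c' hc')
    have l1 := low (xi c') (hxn c' hc') (yi c) (hyn c hc) (by rw [e1, e2]; exact hne)
    rw [e1, e2] at l1
    have l2 := hb2 c hc _ (bx c' hc').le _ (bx c hc).le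
    have l3 := ha2 c' hc' _ (by' c hc).le _ (by' c' hc').le
    set u1 := G c (x₀ + xi c * ρ) (y₀ + yi c * ρ) - Φ (x₀ + xi c * ρ) (y₀ + yi c * ρ)
    set u2 := G c' (x₀ + xi c' * ρ) (y₀ + yi c' * ρ) - Φ (x₀ + xi c' * ρ) (y₀ + yi c' * ρ)
    set u3 := G c (x₀ + xi c' * ρ) (y₀ + yi c * ρ) - Φ (x₀ + xi c' * ρ) (y₀ + yi c * ρ) with hu3
    set u4 := G c' (x₀ + xi c' * ρ) (y₀ + yi c * ρ) - Φ (x₀ + xi c' * ρ) (y₀ + yi c * ρ) with hu4
    have e3 : G c (x₀ + xi c' * ρ) (y₀ + yi c * ρ) - G c' (x₀ + xi c' * ρ) (y₀ + yi c * ρ) =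
        (u3 - u1) + (u1 - u2) - (u4 - u2) := by rw [hu3, hu4]; abel
    rw [e3] at l1
    have n1 := norm_sub_le ((u3 - u1) + (u1 - u2)) (u4 - u2)
    have n2 := norm_add_le (u3 - u1) (u1 - u2)
    have n3 : ‖u3 - u1‖ ≤ T * ρ / 8 + 2 * (2 * L) * ρ := l2
    have n4 : ‖u4 - u2‖ ≤ T * ρ / 8 + 2 * (2 * L) * ρ := l3
    nlinarith [mul_le_mul_of_nonneg_right hTL hρ.le]

end Vale.Agent.P208
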