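import Vale.Agent.P208.Core

/-! The doubling subset of Hilbert space for P208. -/

open Finset

namespace Vale.Agent.P208

variable {H : Type*} [NormedAddCommGroup H] [InnerProductSpace ℝ H]

/-- The point with base `(x, y)` and lift `s`. -/
noncomputable def pt (e : Bool ⊕ ℕ × ℕ → H) (s : ℕ →₀ ℕ) (x y : ℝ) : H :=
  x • e (Sum.inl false) + y • e (Sum.inl true) +
    s.sum fun j c => r j • (e (Sum.inr (j, c)) - e (Sum.inr (j, 0)))

lemma pt_sub (e : Bool ⊕ ℕ × ℕ → H) (s s' : ℕ →₀ ℕ) (x y x' y' : ℝ) (A : Finset ℕ)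
    (h : s.support ⊆ A) (h' : s'.support ⊆ A) :
    pt e s x y - pt e s' x' y' = (x - x') • e (Sum.inl false) + (y - y') • e (Sum.inl true) +
      ∑ j ∈ A, r j • (e (Sum.inr (j, s j)) - e (Sum.inr (j, s' j))) := by
  unfold pt
  rw [Finsupp.sum_of_support_subset s h _ (by simp), Finsupp.sum_of_support_subset s' h' _ (by simp)]
  have : ∑ j ∈ A, r j • (e (Sum.inr (j, s j)) - e (Sum.inr (j, s' j))) =
      ∑ j ∈ A, r j • (e (Sum.inr (j, s j)) - e (Sum.inr (j, 0))) -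
      ∑ j ∈ A, r j • (e (Sum.inr (j, s' j)) - e (Sum.inr (j, 0))) := by
    rw [← Finset.sum_sub_distrib]
    refine Finset.sum_congr rfl fun j _ => ?_
    rw [← smul_sub]; congr 1; abel
  rw [this, sub_smul, sub_smul]; abel

lemma exists_range (s s' : ℕ →₀ ℕ) (j₀ : ℕ) :
    ∃ K, s.support ⊆ range (j₀ + K) ∧ s'.support ⊆ range (j₀ + K) := by
  obtain ⟨M, hM⟩ := Finset.exists_nat_subset_range (s.support ∪ s'.support)
  have : range M ⊆ range (j₀ + M) := Finset.range_subset_range.mpr (by omega)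
  exact ⟨M, (Finset.subset_union_left.trans hM).trans this,
    (Finset.subset_union_right.trans hM).trans this⟩

lemma tail_sum (j₀ K : ℕ) : ∑ i ∈ range K, r (j₀ + i) ≤ 2 * r j₀ - 2 * r (j₀ + K) := by
  induction K with
  | zero => simp
  | succ K ih =>
    rw [Finset.sum_range_succ, ← add_assoc]
    have := r_succ (j₀ + K)
    have := r_pos (j₀ + K + 1)
    linarith

variable {e : Bool ⊕ ℕ × ℕ → H}

lemma norm_term (he : Orthonormal ℝ e) (j a b : ℕ) :
    ‖r j • (e (Sum.inr (j, a)) - e (Sum.inr (j, b)))‖ ≤ 2 * r j := by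
  rw [norm_smul, Real.norm_eq_abs, abs_of_pos (r_pos j)]
  have := norm_sub_le (e (Sum.inr (j, a))) (e (Sum.inr (j, b)))
  rw [he.1, he.1] at this
  nlinarith [r_pos j]

lemma pt_upper (he : Orthonormal ℝ e) (s s' : ℕ →₀ ℕ) (x y x' y' : ℝ) (j₀ : ℕ)
    (h : ∀ j < j₀, s j = s' j) :
    ‖pt e s x y - pt e s' x' y'‖ ≤ |x - x'| + |y - y'| + 4 * r j₀ := by
  obtain ⟨K, h1, h2⟩ := exists_range s s' j₀
  rw [pt_sub e s s' x y x' y' _ h1 h2, Finset.sum_range_add]
  have z : ∑ j ∈ range j₀, r j • (e (Sum.inr (j, s j)) - e (Sum.inr (j, s' j))) = 0 :=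
    Finset.sum_eq_zero fun j hj => by rw [h j (Finset.mem_range.mp hj)]; simp
  rw [z, zero_add]
  refine (norm_add₃_le).trans ?_
  rw [norm_smul, norm_smul, he.1, he.1, Real.norm_eq_abs, Real.norm_eq_abs]
  have := (norm_sum_le (range K) fun i => r (j₀ + i) •
    (e (Sum.inr (j₀ + i, s (j₀ + i))) - e (Sum.inr (j₀ + i, s' (j₀ + i))))).trans
    (Finset.sum_le_sum fun i _ => norm_term he _ _ _)
  rw [← Finset.mul_sum] at this
  have := tail_sum j₀ K
  have := r_pos (j₀ + K)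
  linarith

lemma pt_x (he : Orthonormal ℝ e) (s : ℕ →₀ ℕ) (x x' y : ℝ) :
    ‖pt e s x' y - pt e s x y‖ = |x' - x| := by
  rw [pt_sub e s s x' y x y _ subset_rfl subset_rfl]
  simp [norm_smul, he.1]

lemma pt_y (he : Orthonormal ℝ e) (s : ℕ →₀ ℕ) (x y y' : ℝ) :
    ‖pt e s x y' - pt e s x y‖ = |y' - y| := by
  rw [pt_sub e s s x y' x y _ subset_rfl subset_rfl]
  simp [norm_smul, he.1]

lemma pt_update (he : Orthonormal ℝ e) (s : ℕ →₀ ℕ) (j c : ℕ) (x y : ℝ) :
    ‖pt e (s.update j c) x y - pt e s x y‖ ≤ 2 * r j := by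
  obtain ⟨K, h1, h2⟩ := exists_range (s.update j c) s (j + 1)
  rw [pt_sub e _ _ x y x y _ h1 h2, Finset.sum_eq_single j]
  · simpa using norm_term he j _ _
  · intro b _ hb
    rw [Finsupp.update_apply, if_neg hb]; simp
  · intro hj
    exact absurd (Finset.mem_range.mpr (by omega)) hj

lemma abs_inner_le (he : Orthonormal ℝ e) (k : Bool ⊕ ℕ × ℕ) (v : H) :
    |inner ℝ (e k) v| ≤ ‖v‖ := by
  have := abs_real_inner_le_norm (e k) v
  rwa [he.1, one_mul] at this

lemma pt_low_x (he : Orthonormal ℝ e) (s s' : ℕ →₀ ℕ) (x y x' y' : ℝ) :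
    |x - x'| ≤ ‖pt e s x y - pt e s' x' y'‖ := by
  classical
  obtain ⟨K, h1, h2⟩ := exists_range s s' 0
  refine le_trans (le_of_eq ?_) (abs_inner_le he (Sum.inl false) _)
  rw [pt_sub e s s' x y x' y' _ h1 h2]
  simp [inner_add_right, inner_sum, inner_smul_right, inner_sub_right, orthonormal_iff_ite.mp he,
    he.1]

lemma pt_low_y (he : Orthonormal ℝ e) (s s' : ℕ →₀ ℕ) (x y x' y' : ℝ) :
    |y - y'| ≤ ‖pt e s x y - pt e s' x' y'‖ := by
  classical
  obtain ⟨K, h1, h2⟩ := exists_range s s' 0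
  refine le_trans (le_of_eq ?_) (abs_inner_le he (Sum.inl true) _)
  rw [pt_sub e s s' x y x' y' _ h1 h2]
  simp [inner_add_right, inner_sum, inner_smul_right, inner_sub_right, orthonormal_iff_ite.mp he,
    he.1]

lemma pt_low_s (he : Orthonormal ℝ e) (s s' : ℕ →₀ ℕ) (x y x' y' : ℝ) (j : ℕ) (hj : s j ≠ s' j) :
    r j ≤ ‖pt e s x y - pt e s' x' y'‖ := by
  classical
  obtain ⟨K, h1, h2⟩ := exists_range s s' (j + 1)
  refine le_trans (le_of_eq ?_) ((le_abs_self _).trans (abs_inner_le he (Sum.inr (j, s j)) _))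
  rw [pt_sub e s s' x y x' y' _ h1 h2, inner_add_right, inner_sum, Finset.sum_eq_single j]
  · simp [inner_add_right, inner_smul_right, inner_sub_right, orthonormal_iff_ite.mp he, hj,
      he.1]
  · intro b _ hb
    simp [inner_smul_right, inner_sub_right, orthonormal_iff_ite.mp he, hb.symm]
  · intro hj
    exact absurd (Finset.mem_range.mpr (by omega)) hj

lemma cover {α τ : Type*} (S : Set α) (A : Finset τ) (ty : α → τ) (h : ∀ p ∈ S, ty p ∈ A) :
    ∃ C : Finset α, C.card ≤ A.card ∧ ∀ p ∈ S, ∃ c ∈ C, c ∈ S ∧ ty c = ty p := by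
  classical
  have h1 : ∀ t ∈ A.filter (fun t => ∃ p ∈ S, ty p = t), ∃ p, p ∈ S ∧ ty p = t :=
    fun t ht => (Finset.mem_filter.mp ht).2
  choose g hg1 hg2 using h1
  refine ⟨(A.filter (fun t => ∃ p ∈ S, ty p = t)).attach.image (fun t => g t.1 t.2), ?_, ?_⟩
  · refine Finset.card_image_le.trans ?_
    rw [Finset.card_attach]
    exact Finset.card_filter_le _ _
  · intro p hp
    have hm : ty p ∈ A.filter (fun t => ∃ p ∈ S, ty p = t) :=
      Finset.mem_filter.mpr ⟨h p hp, p, hp, rfl⟩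
    exact ⟨g _ hm, Finset.mem_image.mpr ⟨⟨_, hm⟩, Finset.mem_attach _ _, rfl⟩, hg1 _ hm, hg2 _ hm⟩

lemma r_anti {i j : ℕ} (h : i ≤ j) : r j ≤ r i := by
  induction j, h using Nat.le_induction with
  | base => exact le_rfl
  | succ j _ ih => have := r_succ j; have := r_pos (j + 1); linarith

lemma r_small (δ : ℝ) (hδ : 0 < δ) : ∃ j, r j ≤ δ := by
  obtain ⟨K, hK⟩ := exists_nat_ge (1 / δ)
  obtain ⟨T, hT, hQ⟩ := Q_mul 0 K
  refine ⟨0 + K, ?_⟩
  have h1 : (K : ℝ) < T := by exact_mod_cast hT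
  have h2 : (0 : ℝ) < T := lt_of_le_of_lt (by positivity) h1
  unfold r
  rw [hQ]
  simp only [Q, one_mul]
  rw [div_le_iff₀ hδ] at hK
  rw [div_le_iff₀ h2]
  nlinarith

lemma idx_mem (w y y₀ R : ℝ) (hw : R / 16 < w) (hR : 0 < R) (i : ℤ) (h1 : i * w ≤ y)
    (h2 : y ≤ (i + 1) * w) (h3 : |y - y₀| ≤ R) :
    i ∈ Finset.Icc (⌊y₀ / w⌋ - 17) (⌊y₀ / w⌋ + 17) := by
  have hw0 : 0 < w := by linarith
  have a1 := Int.floor_le (y₀ / w)
  have a2 := Int.lt_floor_add_one (y₀ / w)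
  rw [le_div_iff₀ hw0] at a1
  rw [div_lt_iff₀ hw0] at a2
  obtain ⟨b1, b2⟩ := abs_le.mp h3
  rw [Finset.mem_Icc]
  constructor
  · have : ((⌊y₀ / w⌋ - 17 : ℤ) : ℝ) < (i : ℝ) + 1 - 1 + 1 := by
      push_cast
      refine lt_of_mul_lt_mul_right ?_ hw0.le
      nlinarith
    have : ⌊y₀ / w⌋ - 17 < i + 1 - 1 + 1 := by exact_mod_cast this
    omega
  · have : (i : ℝ) < ((⌊y₀ / w⌋ + 17 : ℤ) : ℝ) := by
      push_cast
      refine lt_of_mul_lt_mul_right ?_ hw0.le
      nlinarith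
    have : i < ⌊y₀ / w⌋ + 17 := by exact_mod_cast this
    omega

lemma cell_mem (x x₀ R : ℝ) (hR : 0 < R) (h : |x - x₀| ≤ R) :
    ⌊(x - x₀) / (R / 8)⌋ ∈ Finset.Icc (-8 : ℤ) 8 := by
  obtain ⟨b1, b2⟩ := abs_le.mp h
  rw [Finset.mem_Icc]
  constructor
  · rw [Int.le_floor, le_div_iff₀ (by positivity)]; push_cast; linarith
  · have : ⌊(x - x₀) / (R / 8)⌋ < 9 := by
      rw [Int.floor_lt, div_lt_iff₀ (by positivity)]; push_cast; linarith
    omega

lemma cell_close (x x' x₀ R : ℝ) (hR : 0 < R)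
    (h : ⌊(x - x₀) / (R / 8)⌋ = ⌊(x' - x₀) / (R / 8)⌋) : |x - x'| < R / 8 := by
  have := Int.abs_sub_lt_one_of_floor_eq_floor h
  rw [← sub_div, abs_div, abs_of_pos (show 0 < R / 8 by positivity),
    div_lt_one (by positivity)] at this
  have e : x - x₀ - (x' - x₀) = x - x' := by ring
  rwa [e] at this

/-- The set. -/
def XX (e : Bool ⊕ ℕ × ℕ → H) : Set H := {z | ∃ s x y, Adm s x y ∧ z = pt e s x y}

theorem doubling (he : Orthonormal ℝ e) : ∃ lam : ℕ, ∀ (z : XX e) (R : ℝ), 0 < R →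
    ∃ C : Finset (XX e), C.card ≤ lam ∧ Metric.closedBall z R ⊆ ⋃ c ∈ C, Metric.ball c (R / 2) := by
  classical
  have hrep : ∀ p : XX e, ∃ s x y, Adm s x y ∧ (p : H) = pt e s x y := fun p => p.2
  choose ss xx yy hadm hpt using hrep
  refine ⟨17 * (17 * 71), fun z R hR => ?_⟩
  have hex := r_small (R / 16) (by positivity)
  set j₀ := Nat.find hex with hj₀
  have hj1 : r j₀ ≤ R / 16 := Nat.find_spec hex
  have hj2 : ∀ j < j₀, R / 16 < r j := fun j hj => lt_of_not_ge (Nat.find_min hex hj)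
  set j₁ := j₀ - 1 with hj₁
  let O : Finset ℕ := insert 0
    (((Finset.Icc (⌊yy z / r j₁⌋ - 17) (⌊yy z / r j₁⌋ + 17)).image (col j₁)) ∪
      ((Finset.Icc (⌊xx z / (Ww j₁ * r j₁)⌋ - 17) (⌊xx z / (Ww j₁ * r j₁)⌋ + 17)).image (col j₁)))
  have hO : O.card ≤ 71 := by
    refine (Finset.card_insert_le _ _).trans ?_
    have a1 := Finset.card_union_le
      ((Finset.Icc (⌊yy z / r j₁⌋ - 17) (⌊yy z / r j₁⌋ + 17)).image (col j₁))
      ((Finset.Icc (⌊xx z / (Ww j₁ * r j₁)⌋ - 17) (⌊xx z / (Ww j₁ * r j₁)⌋ + 17)).image (col j₁))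
    have a2 := Finset.card_image_le
      (s := Finset.Icc (⌊yy z / r j₁⌋ - 17) (⌊yy z / r j₁⌋ + 17)) (f := col j₁)
    have a3 := Finset.card_image_le
      (s := Finset.Icc (⌊xx z / (Ww j₁ * r j₁)⌋ - 17) (⌊xx z / (Ww j₁ * r j₁)⌋ + 17)) (f := col j₁)
    rw [Int.card_Icc] at a2 a3
    omega
  have hd : ∀ p q : XX e, dist p q = ‖pt e (ss p) (xx p) (yy p) - pt e (ss q) (xx q) (yy q)‖ := by
    intro p q
    rw [Subtype.dist_eq, dist_eq_norm, hpt p, hpt q]
  let ty : XX e → ℤ × ℤ × ℕ := fun p =>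
    (⌊(xx p - xx z) / (R / 8)⌋, ⌊(yy p - yy z) / (R / 8)⌋, if j₀ = 0 then 0 else ss p j₁)
  have hx : ∀ p ∈ Metric.closedBall z R, |xx p - xx z| ≤ R := fun p hp =>
    (pt_low_x he _ _ _ _ _ _).trans (by rw [← hd]; exact hp)
  have hy : ∀ p ∈ Metric.closedBall z R, |yy p - yy z| ≤ R := fun p hp =>
    (pt_low_y he _ _ _ _ _ _).trans (by rw [← hd]; exact hp)
  obtain ⟨C, hC1, hC2⟩ := cover (Metric.closedBall z R)
    (Finset.Icc (-8 : ℤ) 8 ×ˢ (Finset.Icc (-8 : ℤ) 8 ×ˢ O)) ty (by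
      intro p hp
      refine Finset.mem_product.mpr ⟨cell_mem _ _ _ hR (hx p hp),
        Finset.mem_product.mpr ⟨cell_mem _ _ _ hR (hy p hp), ?_⟩⟩
      simp only [ty]
      split_ifs with h0
      · exact Finset.mem_insert_self _ _
      · have hw := hj2 j₁ (by omega)
        rcases hadm p j₁ with h | ⟨i, h1, h2, h3⟩ | ⟨i, h1, h2, h3⟩
        · rw [h]; exact Finset.mem_insert_self _ _
        · rw [h3]
          exact Finset.mem_insert_of_mem (Finset.mem_union_left _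
            (Finset.mem_image_of_mem _ (idx_mem _ _ _ R hw hR i h1 h2 (hy p hp))))
        · rw [h3]
          have h4 : (1 : ℝ) ≤ Ww j₁ := by exact_mod_cast Ww_pos j₁
          have hw' : R / 16 < Ww j₁ * r j₁ := by nlinarith [r_pos j₁]
          exact Finset.mem_insert_of_mem (Finset.mem_union_right _
            (Finset.mem_image_of_mem _ (idx_mem _ _ _ R hw' hR i h1 h2 (hx p hp)))))
  refine ⟨C, hC1.trans ?_, fun p hp => ?_⟩
  · rw [Finset.card_product, Finset.card_product, Int.card_Icc]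
    have : (8 + 1 - -8 : ℤ).toNat = 17 := rfl
    rw [this]
    omega
  · obtain ⟨c, hc, hcS, hty⟩ := hC2 p hp
    simp only [Set.mem_iUnion]
    refine ⟨c, hc, ?_⟩
    simp only [ty, Prod.mk.injEq] at hty
    obtain ⟨t1, t2, t3⟩ := hty
    have hs : ∀ q ∈ Metric.closedBall z R, ∀ j, j + 1 < j₀ → ss q j = ss z j := by
      intro q hq j hj
      by_contra hne
      have a1 := pt_low_s he _ _ (xx q) (yy q) (xx z) (yy z) j hne
      rw [← hd] at a1
      have a2 : dist q z ≤ R := hq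
      have a3 := hj2 (j + 1) hj
      have a4 := r_succ j
      linarith
    have hu := pt_upper he (ss p) (ss c) (xx p) (yy p) (xx c) (yy c) j₀ (by
      intro j hj
      by_cases h : j + 1 < j₀
      · rw [hs p hp j h, hs c hcS j h]
      · have : j = j₁ := by omega
        rw [if_neg (by omega), if_neg (by omega)] at t3
        rw [this]; exact t3.symm)
    rw [Metric.mem_ball, hd]
    have a1 := cell_close _ _ _ R hR t1.symm
    have a2 := cell_close _ _ _ R hR t2.symm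
    linarith

theorem no_embedding (he : Orthonormal ℝ e) {E : Type*} [NormedAddCommGroup E]
    [InnerProductSpace ℝ E] [FiniteDimensional ℝ E] (D a : ℝ) (f : XX e → E) (ha : 0 < a) :
    ¬ ∀ x y : XX e, a * dist x y ≤ ‖f x - f y‖ ∧ ‖f x - f y‖ ≤ D * a * dist x y := by
  classical
  intro hf
  have : ProperSpace E := FiniteDimensional.proper ℝ E
  let g : H → E := fun z => if h : z ∈ XX e then f ⟨z, h⟩ else 0
  have hg : ∀ (z : H) (h : z ∈ XX e), g z = f ⟨z, h⟩ := fun z h => dif_pos h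
  have hlip : LipschitzOnWith (Real.toNNReal (D * a)) g (XX e) := by
    refine LipschitzOnWith.of_dist_le_mul fun x hx y hy => ?_
    rw [hg x hx, hg y hy, dist_eq_norm]
    refine (hf ⟨x, hx⟩ ⟨y, hy⟩).2.trans ?_
    exact mul_le_mul_of_nonneg_right (Real.le_coe_toNNReal _) dist_nonneg
  obtain ⟨G, hG, hGe⟩ := hlip.extend_finite_dimension
  set K : ℝ := ((lipschitzExtensionConstant E * Real.toNNReal (D * a) : NNReal) : ℝ) with hK
  have hK0 : 0 ≤ K := NNReal.coe_nonneg _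
  have hL : 0 < K / a + 1 := by positivity
  have hup : ∀ z z' : H, ‖a⁻¹ • G z - a⁻¹ • G z'‖ ≤ (K / a + 1) * ‖z - z'‖ := by
    intro z z'
    have h1 := hG.dist_le_mul z z'
    rw [dist_eq_norm, dist_eq_norm, ← hK] at h1
    rw [← smul_sub, norm_smul, Real.norm_eq_abs, abs_of_pos (inv_pos.mpr ha)]
    have h2 : a⁻¹ * ‖G z - G z'‖ ≤ a⁻¹ * (K * ‖z - z'‖) :=
      mul_le_mul_of_nonneg_left h1 (inv_pos.mpr ha).le
    have h3 : a⁻¹ * (K * ‖z - z'‖) = K / a * ‖z - z'‖ := by ring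
    have := norm_nonneg (z - z')
    nlinarith
  refine core (fun s x y => a⁻¹ • G (pt e s x y)) (K / a + 1) hL ?_ ?_ ?_ ?_
  · intro s x x' y
    have := hup (pt e s x' y) (pt e s x y)
    rwa [pt_x he] at this
  · intro s x y y'
    have := hup (pt e s x y') (pt e s x y)
    rwa [pt_y he] at this
  · intro s j c x y
    have h1 := hup (pt e (s.update j c) x y) (pt e s x y)
    have h2 := mul_le_mul_of_nonneg_left (pt_update he s j c x y) hL.le
    linarith
  · intro s j c c' x y hne h1 h2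
    have m1 : pt e (s.update j c) x y ∈ XX e := ⟨_, _, _, h1, rfl⟩
    have m2 : pt e (s.update j c') x y ∈ XX e := ⟨_, _, _, h2, rfl⟩
    have h3 := (hf ⟨_, m1⟩ ⟨_, m2⟩).1
    rw [← hg _ m1, ← hg _ m2, hGe m1, hGe m2, Subtype.dist_eq, dist_eq_norm] at h3
    have h4 := pt_low_s he (s.update j c) (s.update j c') x y x y j (by simpa using hne)
    rw [← smul_sub, norm_smul, Real.norm_eq_abs, abs_of_pos (inv_pos.mpr ha),
      le_inv_mul_iff₀ ha]
    exact (mul_le_mul_of_nonneg_left h4 ha.le).trans h3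

theorem exists_orthonormal :
    ∃ e : Bool ⊕ ℕ × ℕ → lp (fun _ : ℕ => ℝ) 2, Orthonormal ℝ e :=
  ⟨_, (default : HilbertBasis ℕ ℝ (lp (fun _ : ℕ => ℝ) 2)).orthonormal.comp
    (Encodable.encode : Bool ⊕ ℕ × ℕ → ℕ) Encodable.encode_injective⟩

end Vale.Agent.P208
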